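import Vale.Agent.P299.H819.Core
import Vale.Agent.P299.H348.LiftHom
import Vale.Agent.P299.H348.Poly

/-!
The cone: reduction of the comparison theorem to the homogeneous situation `A[X]`.
-/

namespace Vale.Agent.P299.H819

open Polynomial

/-- the homogenised tuple `X * v` in `A[X]` -/
noncomputable def cone {A : Type*} [CommRing A] {n : ℕ} (v : Fin n → A) : Fin n → A[X] :=
  fun i => X * C (v i)

theorem vn_cone {A : Type*} [CommRing A] {n : ℕ} (v : Fin n → A) (x : A[X] →+* ℂ) :
    vn (cone v) x = ‖x X‖ * vn v (x.comp C) := by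
  unfold vn cone
  have : (fun i => x (X * C (v i))) = (x X) • fun i => (x.comp C) (v i) := by
    ext i
    simp only [map_mul, Pi.smul_apply, smul_eq_mul, RingHom.comp_apply]
  rw [this, norm_smul]

theorem comp_algebraMap {B A : Type*} [CommRing B] [CommRing A] [Algebra B A] (x : A[X] →+* ℂ) :
    x.comp (algebraMap B A[X]) = (x.comp C).comp (algebraMap B A) := by
  ext b
  simp [Polynomial.algebraMap_apply]

/-- points of the cone -/
noncomputable def conePt {A : Type*} [CommRing A] (x : A →+* ℂ) (z : ℂ) : A[X] →+* ℂ :=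
  eval₂RingHom x z

theorem conePt_X {A : Type*} [CommRing A] (x : A →+* ℂ) (z : ℂ) : conePt x z X = z := by
  simp [conePt]

theorem conePt_C {A : Type*} [CommRing A] (x : A →+* ℂ) (z : ℂ) :
    (conePt x z).comp C = x := by
  ext a
  simp [conePt]

section

variable {B A : Type*} [CommRing B] [IsDomain B] [CommRing A] [IsDomain A] [Algebra ℂ B]
  [Algebra ℂ A] [Algebra B A] [IsScalarTower ℂ B A]

/-- complex linear combinations of the homogenised tuple -/
noncomputable def comb {n d : ℕ} (v : Fin n → A) (lam : Fin d → Fin n → ℂ) : Fin d → A[X] :=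
  fun i => ∑ j, C (algebraMap ℂ A (lam i j)) * cone v j

theorem iot_finiteType [Algebra.FiniteType ℂ A] {d : ℕ} (T : Fin d → A[X]) :
    (iot B T).FiniteType := by
  have h1 : (algebraMap ℂ A[X]).FiniteType := by
    have h2 : Algebra.FiniteType ℂ A[X] :=
      Algebra.FiniteType.trans (S := A) inferInstance inferInstance
    exact RingHom.finiteType_algebraMap.2 h2
  have h3 : (iot B T).comp (algebraMap ℂ (MvPolynomial (Fin d) B)) = algebraMap ℂ A[X] := by
    ext c
    rw [RingHom.comp_apply, IsScalarTower.algebraMap_apply ℂ B (MvPolynomial (Fin d) B)]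
    unfold iot
    simp [IsScalarTower.algebraMap_apply ℂ B A]
  rw [← h3] at h1
  exact RingHom.FiniteType.of_comp_finiteType h1

theorem iot_algebraic {n d : ℕ} (v : Fin (n + 1) → A) (hv0 : v 0 = 1)
    (hgen : ∀ a : A, IsAlgebraic (Algebra.adjoin B (Set.range v)) a)
    (T : Fin d → A[X]) (hinj : Function.Injective (iot B T))
    (hint : ∀ j, ∃ P : Polynomial (MvPolynomial (Fin d) B), P ≠ 0 ∧
      P.eval₂ (iot B T) (cone v j) = 0) (p : A[X]) :
    ∃ P : Polynomial (MvPolynomial (Fin d) B), P ≠ 0 ∧ P.eval₂ (iot B T) p = 0 := by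
  classical
  let R := MvPolynomial (Fin d) B
  let Fx := FractionRing A[X]
  let ψ : R →+* Fx := (algebraMap A[X] Fx).comp (iot B T)
  have hψ : Function.Injective ψ := (IsFractionRing.injective A[X] Fx).comp hinj
  let algR : Algebra R Fx := ψ.toAlgebra
  have hmap : ∀ r : R, algebraMap R Fx r = algebraMap A[X] Fx (iot B T r) := fun r => rfl
  have hfaith : FaithfulSMul R Fx := (faithfulSMul_iff_algebraMap_injective R Fx).2 hψ
  -- translation of algebraicity
  have htr : ∀ q : A[X], IsAlgebraic R (algebraMap A[X] Fx q) ↔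
      ∃ P : Polynomial R, P ≠ 0 ∧ P.eval₂ (iot B T) q = 0 := by
    intro q
    constructor
    · rintro ⟨P, hP, hPq⟩
      refine ⟨P, hP, IsFractionRing.injective A[X] Fx ?_⟩
      rw [map_zero, hom_eval₂]
      exact hPq
    · rintro ⟨P, hP, hPq⟩
      refine ⟨P, hP, ?_⟩
      have := congrArg (algebraMap A[X] Fx) hPq
      rw [map_zero, hom_eval₂] at this
      exact this
  rw [← htr]
  let S : Subalgebra R Fx := Subalgebra.algebraicClosure R Fx
  have hS : ∀ q : Fx, q ∈ S ↔ IsAlgebraic R q := fun q => Iff.rfl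
  have hXS : algebraMap A[X] Fx X ∈ S := by
    have h0 := (htr (cone v 0)).2 (hint 0)
    have : cone v 0 = (X : A[X]) := by simp [cone, hv0]
    rw [this] at h0
    exact h0
  have hvS : ∀ j, algebraMap A[X] Fx (C (v j)) ∈ S := by
    intro j
    have h0 := (htr (cone v j)).2 (hint j)
    have hX0 : algebraMap A[X] Fx X ≠ 0 := by
      intro h
      exact X_ne_zero (IsFractionRing.injective A[X] Fx (by rw [h, map_zero]))
    have h1 : algebraMap A[X] Fx (C (v j)) =
        algebraMap A[X] Fx (cone v j) * (algebraMap A[X] Fx X)⁻¹ := by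
      unfold cone
      rw [map_mul, mul_comm (algebraMap A[X] Fx X), mul_assoc, mul_inv_cancel₀ hX0, mul_one]
    rw [h1]
    exact (IsAlgebraic.mul h0 (IsAlgebraic.inv hXS))
  have hadj : ∀ q ∈ Algebra.adjoin B (Set.range v), algebraMap A[X] Fx (C q) ∈ S := by
    intro q hq
    induction hq using Algebra.adjoin_induction with
    | mem q hq =>
      obtain ⟨j, rfl⟩ := hq
      exact hvS j
    | algebraMap b =>
      have h1 : algebraMap A[X] Fx (C (algebraMap B A b)) = algebraMap R Fx (MvPolynomial.C b) := by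
        rw [hmap]
        congr 1
        simp [iot, Polynomial.algebraMap_apply]
      rw [h1]
      exact S.algebraMap_mem _
    | add p q _ _ hp hq =>
      rw [C_add, map_add]
      exact S.add_mem hp hq
    | mul p q _ _ hp hq =>
      rw [C_mul, map_mul]
      exact S.mul_mem hp hq
  have hA : ∀ a : A, algebraMap A[X] Fx (C a) ∈ S := by
    intro a
    obtain ⟨P, hP, hPa⟩ := hgen a
    let τ : Algebra.adjoin B (Set.range v) →+* S :=
      { toFun := fun q => ⟨algebraMap A[X] Fx (C (q : A)), hadj q q.2⟩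
        map_one' := by ext; simp
        map_zero' := by ext; simp
        map_mul' := by intro p q; ext; simp
        map_add' := by intro p q; ext; simp }
    have hτ : Function.Injective τ := by
      intro p q hpq
      have h1 := congrArg (fun s : S => (s : Fx)) hpq
      have h2 : (C (p : A) : A[X]) = C (q : A) := IsFractionRing.injective A[X] Fx h1
      exact Subtype.ext (C_injective h2)
    have hSalg : Algebra.IsAlgebraic R S := ⟨fun q => by
      obtain ⟨Q, hQ, hQq⟩ := q.2
      refine ⟨Q, hQ, ?_⟩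
      apply Subtype.ext
      have : ((aeval q Q : S) : Fx) = aeval (q : Fx) Q :=
        (Polynomial.aeval_algHom_apply S.val q Q).symm
      rw [this, hQq]
      rfl⟩
    have h3 : IsAlgebraic S (algebraMap A[X] Fx (C a)) := by
      refine ⟨P.map τ, (Polynomial.map_ne_zero_iff hτ).2 hP, ?_⟩
      rw [aeval_def, eval₂_map]
      have h4 : (algebraMap S Fx).comp τ = ((algebraMap A[X] Fx).comp C).comp
          (algebraMap (Algebra.adjoin B (Set.range v)) A) := by
        ext q
        rfl
      rw [h4]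
      have h5 := congrArg ((algebraMap A[X] Fx).comp C) hPa
      rw [aeval_def, map_zero, hom_eval₂] at h5
      exact h5
    rw [hS]
    exact IsAlgebraic.restrictScalars R h3
  rw [← hS]
  induction p using Polynomial.induction_on' with
  | add p q hp hq =>
    rw [map_add]
    exact S.add_mem hp hq
  | monomial k a =>
    rw [← C_mul_X_pow_eq_monomial, map_mul, map_pow]
    exact S.mul_mem (hA a) (S.pow_mem hXS k)

end

section

variable {B A : Type*} [CommRing B] [CommRing A] [Algebra B A]

/-- a bound on `vn T x ≤ 1` and scaling give a homogeneous bound -/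
theorem scal_bound {d : ℕ} (T : Fin d → A) (θ : A) {y : B →+* ℂ} {K : ℝ} (hK : 0 ≤ K)
    (hbd : ∀ x' : A →+* ℂ, x'.comp (algebraMap B A) = y → vn T x' ≤ 1 → ‖x' θ‖ ≤ K)
    {x : A →+* ℂ}
    (hscal : ∀ z : ℂ, ∃ x' : A →+* ℂ, x'.comp (algebraMap B A) = y ∧
      (∀ i, x' (T i) = z * x (T i)) ∧ x' θ = z * x θ) : ‖x θ‖ ≤ K * vn T x := by
  rcases (vn_nonneg T x).eq_or_lt with h0 | h0
  · have hT0 : ∀ i, x (T i) = 0 := fun i => by
      have := le_vn T x i
      rw [← h0] at this
      exact norm_le_zero_iff.1 this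
    by_contra hcon
    push Not at hcon
    rw [← h0, mul_zero] at hcon
    obtain ⟨x', hx', hT', hθ'⟩ := hscal (((K + 1) / ‖x θ‖ : ℝ) : ℂ)
    have h1 : vn T x' ≤ 1 := by
      have : (fun i => x' (T i)) = 0 := by
        ext i
        rw [hT' i, hT0 i, mul_zero]
        rfl
      unfold vn
      rw [this, norm_zero]
      exact zero_le_one
    have h2 := hbd x' hx' h1
    rw [hθ', norm_mul, Complex.norm_real, Real.norm_of_nonneg (by positivity),
      div_mul_cancel₀ _ hcon.ne'] at h2
    linarith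
  · obtain ⟨x', hx', hT', hθ'⟩ := hscal (((vn T x)⁻¹ : ℝ) : ℂ)
    have h1 : vn T x' = 1 := by
      have h2 : (fun i => x' (T i)) = (((vn T x)⁻¹ : ℝ) : ℂ) • fun i => x (T i) := by
        ext i
        rw [hT' i]
        rfl
      have h3 : vn T x' = ‖fun i => x' (T i)‖ := rfl
      rw [h3, h2, norm_smul, Complex.norm_real, Real.norm_of_nonneg (by positivity)]
      exact inv_mul_cancel₀ h0.ne'
    have h2 := hbd x' hx' h1.le
    rw [hθ', norm_mul, Complex.norm_real, Real.norm_of_nonneg (by positivity),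
      inv_mul_le_iff₀ h0] at h2
    linarith

theorem fin_of_integral {d : ℕ} (T : Fin d → A) (θ : A)
    (P : Polynomial (MvPolynomial (Fin d) B)) (c : B) (hlc : P.leadingCoeff = MvPolynomial.C c)
    (hP : P.eval₂ (iot B T) θ = 0)
    (hscal : ∀ (x : A →+* ℂ) (z : ℂ), ∃ x' : A →+* ℂ,
      x'.comp (algebraMap B A) = x.comp (algebraMap B A) ∧
      (∀ i, x' (T i) = z * x (T i)) ∧ x' θ = z * x θ) (y : B →+* ℂ) (hy : y c ≠ 0) :
    ∃ K : ℝ, 0 ≤ K ∧ ∀ x : A →+* ℂ, x.comp (algebraMap B A) = y → ‖x θ‖ ≤ K * vn T x := by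
  classical
  -- bound of the coefficients
  obtain ⟨K, hK⟩ : ∃ K : ℝ, ∀ i ∈ Finset.range P.natDegree, ∀ t : Fin d → ℂ, ‖t‖ ≤ 1 →
      ‖MvPolynomial.eval t (MvPolynomial.map y (P.coeff i))‖ ≤ K := by
    have h1 : ∀ i, ∃ K : ℝ, 0 ≤ K ∧ ∀ t : Fin d → ℂ, ‖t‖ ≤ 1 →
        ‖MvPolynomial.eval t (MvPolynomial.map y (P.coeff i))‖ ≤ K := by
      intro i
      obtain ⟨K, hK⟩ := (isCompact_closedBall (0 : Fin d → ℂ) 1).exists_bound_of_continuousOn
        (f := fun t => MvPolynomial.eval t (MvPolynomial.map y (P.coeff i)))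
        (MvPolynomial.continuous_eval _).continuousOn
      exact ⟨|K|, abs_nonneg _, fun t ht => (hK t (mem_closedBall_zero_iff.2 ht)).trans
        (le_abs_self _)⟩
    choose K hK0 hK using h1
    refine ⟨∑ i ∈ Finset.range P.natDegree, K i, fun i hi t ht => (hK i t ht).trans ?_⟩
    exact Finset.single_le_sum (f := fun i => K i) (fun i _ => hK0 i) hi
  have hyc : 0 < ‖y c‖ := norm_pos_iff.2 hy
  set M : ℝ := max 1 (K / ‖y c‖) with hM
  have hM1 : 1 ≤ M := le_max_left _ _
  have hKM : K ≤ ‖y c‖ * M := by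
    have : K / ‖y c‖ ≤ M := le_max_right _ _
    rw [div_le_iff₀ hyc] at this
    linarith
  refine ⟨2 * M, by linarith, fun x hx => ?_⟩
  apply scal_bound T θ (y := y) (by linarith)
  · intro x' hx' hT
    set φ : MvPolynomial (Fin d) B →+* ℂ := MvPolynomial.eval₂Hom y (fun i => x' (T i)) with hφ
    have hφ' : ∀ p, φ p = MvPolynomial.eval (fun i => x' (T i)) (MvPolynomial.map y p) :=
      hom_eq_eval y _
    have hx'' : x'.comp (iot B T) = φ := comp_iot_iff.2 ⟨hx', fun _ => rfl⟩
    have hφc : φ P.leadingCoeff = y c := by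
      rw [hlc, hφ']
      simp
    have hφne : φ P.leadingCoeff ≠ 0 := by rw [hφc]; exact hy
    have hdeg : (P.map φ).natDegree = P.natDegree :=
      Polynomial.natDegree_map_of_leadingCoeff_ne_zero _ hφne
    have hlc' : (P.map φ).leadingCoeff = y c := by
      rw [Polynomial.leadingCoeff_map_of_leadingCoeff_ne_zero _ hφne, hφc]
    have hne : P.map φ ≠ 0 := by
      intro h
      rw [h, Polynomial.leadingCoeff_zero] at hlc'
      exact hy hlc'.symm
    have hroot : (P.map φ).IsRoot (x' θ) := by
      rw [Polynomial.IsRoot, Polynomial.eval_map, ← hx'']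
      have := congrArg x' hP
      rw [map_zero, Polynomial.hom_eval₂] at this
      exact this
    apply root_le (by linarith) hne _ hroot
    intro i hi
    rw [hdeg] at hi ⊢
    rw [Polynomial.coeff_map, hlc', hφ']
    calc _ ≤ K := hK i (Finset.mem_range.2 hi) _ hT
      _ ≤ ‖y c‖ * M := hKM
      _ ≤ ‖y c‖ * M ^ (P.natDegree - i) := by
          gcongr
          exact le_self_pow₀ hM1 (by omega)
  · intro z
    obtain ⟨x', h1, h2, h3⟩ := hscal x z
    exact ⟨x', by rw [h1, hx], h2, h3⟩

end

end Vale.Agent.P299.H819
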