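import Vale.Agent.P299.H819.Est

/-!
Assembly of the two-sided estimates for finitely many projections.
-/

namespace Vale.Agent.P299.H819

open MvPolynomial

/-- sums of squares of absolute values of elements of `B`, as functions of the point `y` -/
def SOS (B : Type*) [CommRing B] (f : (B →+* ℂ) → ℝ) : Prop :=
  ∃ (ι : Type) (_ : Fintype ι) (h : ι → B), ∀ y, f y = ∑ k, ‖y (h k)‖ ^ 2

section SOS

variable {B : Type*} [CommRing B]

theorem SOS.nonneg {f : (B →+* ℂ) → ℝ} (hf : SOS B f) (y : B →+* ℂ) : 0 ≤ f y := by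
  obtain ⟨ι, _, h, hh⟩ := hf
  rw [hh]
  exact Finset.sum_nonneg fun _ _ => by positivity

theorem SOS.sq (b : B) : SOS B (fun y => ‖y b‖ ^ 2) :=
  ⟨Unit, inferInstance, fun _ => b, fun y => by simp⟩

theorem SOS.mul {f f' : (B →+* ℂ) → ℝ} (hf : SOS B f) (hf' : SOS B f') :
    SOS B (fun y => f y * f' y) := by
  obtain ⟨ι, _, h, hh⟩ := hf
  obtain ⟨ι', _, h', hh'⟩ := hf'
  refine ⟨ι × ι', inferInstance, fun p => h p.1 * h' p.2, fun y => ?_⟩
  simp only [hh, hh']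
  rw [Fintype.sum_prod_type, Finset.sum_mul_sum]
  refine Finset.sum_congr rfl fun i _ => Finset.sum_congr rfl fun j _ => ?_
  rw [map_mul, norm_mul, mul_pow]

theorem SOS.add {f f' : (B →+* ℂ) → ℝ} (hf : SOS B f) (hf' : SOS B f') :
    SOS B (fun y => f y + f' y) := by
  obtain ⟨ι, _, h, hh⟩ := hf
  obtain ⟨ι', _, h', hh'⟩ := hf'
  refine ⟨ι ⊕ ι', inferInstance, Sum.elim h h', fun y => ?_⟩
  simp only [hh, hh']
  rw [Fintype.sum_sum_type]
  simp

theorem SOS.sum {J : Type*} (s : Finset J) (f : J → (B →+* ℂ) → ℝ) (hf : ∀ j, SOS B (f j)) :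
    SOS B (fun y => ∑ j ∈ s, f j y) := by
  classical
  induction s using Finset.induction_on with
  | empty => exact ⟨Empty, inferInstance, fun k => k.elim, fun y => by simp⟩
  | insert a s ha ih =>
    have := (hf a).add ih
    simpa only [Finset.sum_insert ha] using this

theorem SOS.prod {J : Type*} (s : Finset J) (f : J → (B →+* ℂ) → ℝ) (hf : ∀ j, SOS B (f j)) :
    SOS B (fun y => ∏ j ∈ s, f j y) := by
  classical
  induction s using Finset.induction_on with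
  | empty => exact ⟨Unit, inferInstance, fun _ => 1, fun y => by simp⟩
  | insert a s ha ih =>
    have := (hf a).mul ih
    simpa only [Finset.prod_insert ha] using this

end SOS

/-- `N j` times the product of the other `C i` -/
noncomputable def mixed {J : Type*} [Fintype J] (N C : J → ℝ) : ℝ := by
  classical
  exact ∑ j, N j * ∏ i ∈ Finset.univ.erase j, C i

theorem SOS.mixed {B : Type*} [CommRing B] {J : Type*} [Fintype J] (N C : J → (B →+* ℂ) → ℝ)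
    (hN : ∀ j, SOS B (N j)) (hC : ∀ j, SOS B (C j)) :
    SOS B (fun y => Vale.Agent.P299.H819.mixed (fun j => N j y) (fun j => C j y)) := by
  classical
  unfold Vale.Agent.P299.H819.mixed
  exact SOS.sum _ _ fun j => (hN j).mul (SOS.prod _ _ hC)

theorem mixed_le {J : Type*} [Fintype J] (N C : J → ℝ) (hC : ∀ j, 0 ≤ C j) {a : ℝ}
    (h : ∀ j, N j ≤ a * C j) : mixed N C ≤ Fintype.card J * a * ∏ j, C j := by
  classical
  unfold mixed
  calc ∑ j, N j * ∏ i ∈ Finset.univ.erase j, C i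
      ≤ ∑ j, (a * C j) * ∏ i ∈ Finset.univ.erase j, C i :=
        Finset.sum_le_sum fun j _ => mul_le_mul_of_nonneg_right (h j)
          (Finset.prod_nonneg fun i _ => hC i)
    _ = ∑ _j : J, a * ∏ i, C i := by
        refine Finset.sum_congr rfl fun j _ => ?_
        rw [mul_assoc, Finset.mul_prod_erase _ _ (Finset.mem_univ j)]
    _ = _ := by rw [Finset.sum_const, Finset.card_univ, nsmul_eq_mul]; ring

theorem le_mixed {J : Type*} [Fintype J] (N C : J → ℝ) (hC : ∀ j, 0 ≤ C j) (hN : ∀ j, 0 ≤ N j)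
    {a : ℝ} (ha0 : 0 ≤ a) (j : J) (h : C j ≤ a * N j) : ∏ i, C i ≤ a * mixed N C := by
  classical
  unfold mixed
  have ha : ∀ i, 0 ≤ N i * ∏ k ∈ Finset.univ.erase i, C k := fun i =>
    mul_nonneg (hN i) (Finset.prod_nonneg fun k _ => hC k)
  have h1 : N j * ∏ i ∈ Finset.univ.erase j, C i ≤ ∑ j, N j * ∏ i ∈ Finset.univ.erase j, C i :=
    Finset.single_le_sum (f := fun j => N j * ∏ i ∈ Finset.univ.erase j, C i)
      (fun i _ => ha i) (Finset.mem_univ j)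
  calc ∏ i, C i = C j * ∏ i ∈ Finset.univ.erase j, C i :=
        (Finset.mul_prod_erase _ _ (Finset.mem_univ j)).symm
    _ ≤ (a * N j) * ∏ i ∈ Finset.univ.erase j, C i :=
        mul_le_mul_of_nonneg_right h (Finset.prod_nonneg fun i _ => hC i)
    _ = a * (N j * ∏ i ∈ Finset.univ.erase j, C i) := by ring
    _ ≤ _ := mul_le_mul_of_nonneg_left h1 ha0

theorem prod_mul_sum_le {J : Type*} [Fintype J] (S C W : J → ℝ) (hC : ∀ j, 0 ≤ C j) {a : ℝ}
    (h : ∀ j, W j * C j ≤ a * S j) : (∏ j, C j) * ∑ j, W j ≤ a * mixed S C := by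
  classical
  unfold mixed
  rw [Finset.mul_sum, Finset.mul_sum]
  refine Finset.sum_le_sum fun j _ => ?_
  calc (∏ j, C j) * W j = (W j * C j) * ∏ i ∈ Finset.univ.erase j, C i := by
        rw [← Finset.mul_prod_erase _ _ (Finset.mem_univ j)]
        ring
    _ ≤ (a * S j) * ∏ i ∈ Finset.univ.erase j, C i :=
        mul_le_mul_of_nonneg_right (h j) (Finset.prod_nonneg fun i _ => hC i)
    _ = _ := by ring

theorem mixed_pos {J : Type*} [Fintype J] (N C : J → ℝ) (hC : ∀ j, 0 < C j) (hN : ∀ j, 0 ≤ N j)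
    (h : ∃ j, 0 < N j) : 0 < mixed N C := by
  classical
  unfold mixed
  obtain ⟨j, hj⟩ := h
  exact Finset.sum_pos' (fun i _ => mul_nonneg (hN i) (Finset.prod_nonneg fun k _ => (hC k).le))
    ⟨j, Finset.mem_univ j, mul_pos hj (Finset.prod_pos fun k _ => hC k)⟩

theorem mixed_mul_right {J : Type*} [Fintype J] (N C : J → ℝ) (a : ℝ) :
    mixed (fun j => N j * a) C = mixed N C * a := by
  classical
  unfold mixed
  rw [Finset.sum_mul]
  exact Finset.sum_congr rfl fun j _ => by ring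

theorem vn_pow_le {A : Type*} [CommRing A] {b : ℕ} (w : Fin b → A) (x : A →+* ℂ) {e : ℕ}
    (he : 0 < e) : vn w x ^ e ≤ ∑ j, ‖x (w j)‖ ^ e := by
  rcases Nat.eq_zero_or_pos b with hb | hb
  · subst hb
    have : vn w x = 0 := by
      unfold vn
      rw [Pi.norm_def]
      simp
    rw [this, zero_pow he.ne']
    simp
  · have : Nonempty (Fin b) := ⟨⟨0, hb⟩⟩
    obtain ⟨j, hj⟩ := Finite.exists_max (fun j => ‖x (w j)‖)
    have h1 : vn w x ≤ ‖x (w j)‖ := (pi_norm_le_iff_of_nonneg (norm_nonneg _)).2 hj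
    calc vn w x ^ e ≤ ‖x (w j)‖ ^ e := pow_le_pow_left₀ (vn_nonneg w x) h1 e
      _ ≤ _ := Finset.single_le_sum (f := fun j => ‖x (w j)‖ ^ e) (fun _ _ => by positivity)
          (Finset.mem_univ j)

theorem core {B A : Type*} [CommRing B] [IsDomain B] [CommRing A] [IsDomain A] [Algebra B A]
    (Y : (B →+* ℂ) → Prop) (hpt : ∀ g : B, g ≠ 0 → ∃ y : B →+* ℂ, Y y ∧ y g ≠ 0)
    {n b d : ℕ} (v : Fin n → A) (w : Fin b → A) (σ : A) (hσ : σ ≠ 0) (r : ℕ)
    (hw : ∃ j, w j ≠ 0) {L : Type} [Fintype L] (T : L → Fin d → A)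
    (hinj : ∀ l, Function.Injective (iot B (T l)))
    (hlift : ∀ l j, Lift (iot B (T l)) ![σ, w j])
    (hscal : ∀ (x : A →+* ℂ) (z : ℂ), ∃ x' : A →+* ℂ,
      x'.comp (algebraMap B A) = x.comp (algebraMap B A) ∧
      (∀ l i, x' (T l i) = z * x (T l i)) ∧ ∀ j, x' (w j) = z * x (w j))
    (hTv : ∃ C : ℝ, ∀ (l : L) (x : A →+* ℂ), Y (x.comp (algebraMap B A)) →
      vn (T l) x ≤ C * vn v x)
    (hfin : ∀ l, ∃ g : B, g ≠ 0 ∧ ∀ y : B →+* ℂ, Y y → y g ≠ 0 → ∃ C : ℝ, ∀ x : A →+* ℂ,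
      x.comp (algebraMap B A) = y → vn v x ≤ C * vn (T l) x)
    (hgood : ∃ g : B, g ≠ 0 ∧ ∃ C : ℝ, ∀ y : B →+* ℂ, Y y → y g ≠ 0 → ∃ l, ∀ x : A →+* ℂ,
      x.comp (algebraMap B A) = y → vn v x ≤ C * vn (T l) x)
    (h4 : ∃ g : B, g ≠ 0 ∧ ∀ y : B →+* ℂ, Y y → y g ≠ 0 → ∃ C : ℝ, ∀ x : A →+* ℂ,
      x.comp (algebraMap B A) = y → ‖x σ‖ ≤ C * vn v x ^ r)
    (h5 : ∀ m₀ : ℕ, ∃ m ≥ m₀, ∃ g : B, g ≠ 0 ∧ ∀ y : B →+* ℂ, Y y → y g ≠ 0 → ∃ C : ℝ,
      ∀ x : A →+* ℂ, x.comp (algebraMap B A) = y → ‖x σ‖ * vn w x ^ m ≤ C * vn v x ^ (m + r)) :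
    ∃ (f₁ f₂ : (B →+* ℂ) → ℝ) (e : ℕ) (g : B) (D : ℝ), SOS B f₁ ∧ SOS B f₂ ∧ 0 < e ∧ g ≠ 0 ∧
      0 < D ∧ ∀ y : B →+* ℂ, Y y → y g ≠ 0 → 0 < f₁ y ∧ 0 < f₂ y ∧
        (∃ x : A →+* ℂ, x.comp (algebraMap B A) = y) ∧
        (∀ x : A →+* ℂ, x.comp (algebraMap B A) = y →
          vn w x ^ (2 * e) * f₁ y ≤ D * f₂ y * vn v x ^ (2 * e)) ∧
        (∀ R : ℝ, 0 ≤ R → (∀ x : A →+* ℂ, x.comp (algebraMap B A) = y → vn w x ≤ R * vn v x) →
          f₂ y ≤ D * R ^ (2 * e) * f₁ y) := by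
  classical
  obtain ⟨j₀, hj₀⟩ := hw
  obtain ⟨gg, hgg, Cg, hCg⟩ := hgood
  obtain ⟨l₀, -⟩ : ∃ l : L, True := by
    obtain ⟨y, hyY, hy⟩ := hpt gg hgg
    obtain ⟨l, _⟩ := hCg y hyY hy
    exact ⟨l, trivial⟩
  obtain ⟨CT, hCT⟩ := hTv
  -- growth in terms of `T l`
  have h4T : ∀ l, ∃ g : B, g ≠ 0 ∧ ∀ y : B →+* ℂ, Y y → y g ≠ 0 → ∃ C : ℝ, ∀ x : A →+* ℂ,
      x.comp (algebraMap B A) = y → ‖x σ‖ ≤ C * vn (T l) x ^ r := by
    intro l
    obtain ⟨g1, hg1, h1⟩ := hfin l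
    obtain ⟨g2, hg2, h2⟩ := h4
    refine ⟨g1 * g2, mul_ne_zero hg1 hg2, fun y hyY hy => ?_⟩
    rw [map_mul, mul_ne_zero_iff] at hy
    obtain ⟨C1, hC1⟩ := h1 y hyY hy.1
    obtain ⟨C2, hC2⟩ := h2 y hyY hy.2
    refine ⟨|C2| * |C1| ^ r, fun x hx => ?_⟩
    have hv0 := vn_nonneg v x
    have hT0 := vn_nonneg (T l) x
    calc ‖x σ‖ ≤ C2 * vn v x ^ r := hC2 x hx
      _ ≤ |C2| * vn v x ^ r := by gcongr; exact le_abs_self _
      _ ≤ |C2| * (|C1| * vn (T l) x) ^ r := by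
          gcongr
          exact (hC1 x hx).trans (by gcongr; exact le_abs_self _)
      _ = _ := by rw [mul_pow]; ring
  have h5T : ∀ l j, ∀ m₀ : ℕ, ∃ m ≥ m₀, ∃ g : B, g ≠ 0 ∧ ∀ y : B →+* ℂ, Y y → y g ≠ 0 → ∃ C : ℝ,
      ∀ x : A →+* ℂ, x.comp (algebraMap B A) = y →
        ‖x σ‖ * ‖x (w j)‖ ^ m ≤ C * vn (T l) x ^ (m + r) := by
    intro l j m₀
    obtain ⟨g1, hg1, h1⟩ := hfin l
    obtain ⟨m, hm, g2, hg2, h2⟩ := h5 m₀
    refine ⟨m, hm, g1 * g2, mul_ne_zero hg1 hg2, fun y hyY hy => ?_⟩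
    rw [map_mul, mul_ne_zero_iff] at hy
    obtain ⟨C1, hC1⟩ := h1 y hyY hy.1
    obtain ⟨C2, hC2⟩ := h2 y hyY hy.2
    refine ⟨|C2| * |C1| ^ (m + r), fun x hx => ?_⟩
    have hv0 := vn_nonneg v x
    have hT0 := vn_nonneg (T l) x
    calc ‖x σ‖ * ‖x (w j)‖ ^ m ≤ ‖x σ‖ * vn w x ^ m := by
          gcongr
          exact le_vn w x j
      _ ≤ C2 * vn v x ^ (m + r) := hC2 x hx
      _ ≤ |C2| * vn v x ^ (m + r) := by gcongr; exact le_abs_self _
      _ ≤ |C2| * (|C1| * vn (T l) x) ^ (m + r) := by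
          gcongr
          exact (hC1 x hx).trans (by gcongr; exact le_abs_self _)
      _ = _ := by rw [mul_pow]; ring
  have hctrl : ∀ l j, ∃ k, Ctrl B (T l) (w j) k := fun l j =>
    poly_of_growth Y hpt (T l) (hinj l) σ (w j) hσ (hlift l j) r (h4T l) (h5T l j)
  choose N hN using hctrl
  -- the exponent
  set e : ℕ := ∏ l, ∏ j, (N l j).factorial with he
  have he0 : 0 < e := Finset.prod_pos fun l _ => Finset.prod_pos fun j _ => Nat.factorial_pos _
  have hdiv : ∀ l j, ∀ k, 0 < k → k ≤ N l j → k ∣ e := by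
    intro l j k hk hkN
    refine (Nat.dvd_factorial hk hkN).trans ?_
    exact (Finset.dvd_prod_of_mem (fun j => (N l j).factorial) (Finset.mem_univ j)).trans
      (Finset.dvd_prod_of_mem (fun l => ∏ j, (N l j).factorial) (Finset.mem_univ l))
  have hest := fun l j => ctrl_est (T l) (w j) (hN l j) e he0 (hdiv l j)
  choose ι instι h c g D hc hg hD hmain using hest
  -- uniform constant
  obtain ⟨D₀, hD₀, hDle⟩ : ∃ D₀ : ℝ, 0 < D₀ ∧ ∀ l j, D l j ≤ D₀ := by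
    refine ⟨∑ l, ∑ j, D l j, ?_, fun l j => ?_⟩
    · exact Finset.sum_pos (fun l _ => Finset.sum_pos (fun j _ => hD l j) ⟨j₀, Finset.mem_univ _⟩)
        ⟨l₀, Finset.mem_univ _⟩
    · exact (Finset.single_le_sum (f := fun j => D l j) (fun j _ => (hD l j).le)
        (Finset.mem_univ j)).trans (Finset.single_le_sum (f := fun l => ∑ j, D l j)
        (fun l _ => Finset.sum_nonneg fun j _ => (hD l j).le) (Finset.mem_univ l))
  let S : L → Fin b → (B →+* ℂ) → ℝ := fun l j y => ∑ k, ‖y (h l j k)‖ ^ 2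
  let Cc : L → Fin b → (B →+* ℂ) → ℝ := fun l j y => ‖y (c l j)‖ ^ 2
  have hS : ∀ l j, SOS B (S l j) := fun l j => ⟨ι l j, instι l j, h l j, fun y => rfl⟩
  have hCc : ∀ l j, SOS B (Cc l j) := fun l j => SOS.sq (c l j)
  let Nn : L → (B →+* ℂ) → ℝ := fun l y => mixed (fun j => S l j y) (fun j => Cc l j y)
  let Dd : L → (B →+* ℂ) → ℝ := fun l y => ∏ j, Cc l j y
  have hNn : ∀ l, SOS B (Nn l) := fun l => SOS.mixed _ _ (hS l) (hCc l)
  have hDd : ∀ l, SOS B (Dd l) := fun l => SOS.prod _ _ (hCc l)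
  -- existence of points
  obtain ⟨q, hq, hex, -⟩ := hlift l₀ j₀
  obtain ⟨gq, hgq, hgq'⟩ := spec_ne_zero q hq
  obtain ⟨K₁, hK₁0, hK₁⟩ : ∃ K₁ : ℝ, 0 < K₁ ∧ (Fintype.card L) * (D₀ * |CT| ^ (2 * e)) ≤ K₁ :=
    ⟨(Fintype.card L) * (D₀ * |CT| ^ (2 * e)) + 1, by positivity, by linarith⟩
  obtain ⟨K₂, hK₂0, hK₂⟩ : ∃ K₂ : ℝ, 0 < K₂ ∧ b * (D₀ * |Cg| ^ (2 * e)) ≤ K₂ :=
    ⟨b * (D₀ * |Cg| ^ (2 * e)) + 1, by positivity, by linarith⟩
  refine ⟨fun y => mixed (fun l => Dd l y) (fun l => Nn l y), fun y => ∏ l, Nn l y, e,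
    gq * (gg * ∏ l, ∏ j, g l j), K₁ + K₂, SOS.mixed _ _ hDd hNn, SOS.prod _ _ hNn, he0,
    mul_ne_zero hgq (mul_ne_zero hgg (Finset.prod_ne_zero_iff.2 fun l _ =>
      Finset.prod_ne_zero_iff.2 fun j _ => hg l j)), by positivity, ?_⟩
  intro y hyY hy
  rw [map_mul, map_mul, mul_ne_zero_iff, mul_ne_zero_iff, map_prod] at hy
  obtain ⟨hyq, hygg, hyg⟩ := hy
  have hyg' : ∀ l j, y (g l j) ≠ 0 := by
    intro l j
    have h1 := Finset.prod_ne_zero_iff.1 hyg l (Finset.mem_univ l)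
    rw [map_prod] at h1
    exact Finset.prod_ne_zero_iff.1 h1 j (Finset.mem_univ j)
  have hm := fun l j => hmain l j y (hyg' l j)
  have hCpos : ∀ l j, 0 < Cc l j y := fun l j => by
    have := norm_pos_iff.2 (hm l j).1
    simp only [Cc]
    positivity
  have hSnn : ∀ l j, 0 ≤ S l j y := fun l j => (hS l j).nonneg y
  have hNpos : ∀ l, 0 < Nn l y := fun l =>
    mixed_pos _ _ (hCpos l) (hSnn l) ⟨j₀, (hm l j₀).2.1 hj₀⟩
  have hDpos : ∀ l, 0 < Dd l y := fun l => Finset.prod_pos fun j _ => hCpos l j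
  have hf₂pos : 0 < ∏ l, Nn l y := Finset.prod_pos fun l _ => hNpos l
  have hf₁pos : 0 < mixed (fun l => Dd l y) (fun l => Nn l y) :=
    mixed_pos _ _ hNpos (fun l => (hDpos l).le) ⟨l₀, hDpos l₀⟩
  refine ⟨hf₁pos, hf₂pos, ?_, ?_, ?_⟩
  · obtain ⟨t, ht⟩ := (dense_ne_zero (hgq' y hyq)).nonempty
    obtain ⟨x, hx⟩ := hex (eval₂Hom y t) (by rw [hom_eq_eval]; exact ht)
    exact ⟨x, (comp_iot_iff.1 hx).1⟩
  · -- upper estimate
    intro x hx
    have hv0 := vn_nonneg v x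
    have hl : ∀ l, Dd l y * vn w x ^ (2 * e) ≤
        (D₀ * |CT| ^ (2 * e) * vn v x ^ (2 * e)) * Nn l y := by
      intro l
      have hT0 := vn_nonneg (T l) x
      have h1 : ∀ j, ‖x (w j)‖ ^ (2 * e) * Cc l j y ≤ (D₀ * vn (T l) x ^ (2 * e)) * S l j y := by
        intro j
        have h2 := (hm l j).2.2.1 x hx (fun z => by
          obtain ⟨x', h1, h2, h3⟩ := hscal x z
          exact ⟨x', by rw [h1, hx], h2 l, h3 j⟩)
        calc ‖x (w j)‖ ^ (2 * e) * Cc l j y ≤ D l j * S l j y * vn (T l) x ^ (2 * e) := h2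
          _ ≤ D₀ * S l j y * vn (T l) x ^ (2 * e) := by
              have := hSnn l j
              gcongr
              exact hDle l j
          _ = _ := by ring
      calc Dd l y * vn w x ^ (2 * e) ≤ Dd l y * ∑ j, ‖x (w j)‖ ^ (2 * e) :=
            mul_le_mul_of_nonneg_left (vn_pow_le w x (by omega)) (hDpos l).le
        _ ≤ (D₀ * vn (T l) x ^ (2 * e)) * Nn l y :=
            prod_mul_sum_le (fun j => S l j y) (fun j => Cc l j y) _
              (fun j => (hCpos l j).le) h1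
        _ ≤ (D₀ * (|CT| * vn v x) ^ (2 * e)) * Nn l y := by
            have := (hNpos l).le
            gcongr
            exact (hCT l x (by rw [hx]; exact hyY)).trans (by gcongr; exact le_abs_self _)
        _ = _ := by rw [mul_pow]; ring
    have h3 := mixed_le (fun l => Dd l y * vn w x ^ (2 * e)) (fun l => Nn l y)
      (fun l => (hNpos l).le) hl
    rw [mixed_mul_right] at h3
    calc vn w x ^ (2 * e) * mixed (fun l => Dd l y) (fun l => Nn l y)
        = mixed (fun l => Dd l y) (fun l => Nn l y) * vn w x ^ (2 * e) := mul_comm _ _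
      _ ≤ _ := h3
      _ = ((Fintype.card L) * (D₀ * |CT| ^ (2 * e))) * (∏ l, Nn l y) * vn v x ^ (2 * e) := by
          ring
      _ ≤ (K₁ + K₂) * (∏ l, Nn l y) * vn v x ^ (2 * e) := by
          gcongr
          linarith
  · -- lower estimate
    intro R hR0 hR
    obtain ⟨l, hl⟩ := hCg y hyY hygg
    have h1 : ∀ j, S l j y ≤ (D₀ * (R * |Cg|) ^ (2 * e)) * Cc l j y := by
      intro j
      have h2 := (hm l j).2.2.2 (R * |Cg|) (by positivity) (by
        intro x hx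
        have hT0 := vn_nonneg (T l) x
        calc ‖x (w j)‖ ≤ vn w x := le_vn w x j
          _ ≤ R * vn v x := hR x hx
          _ ≤ R * (|Cg| * vn (T l) x) := by
              gcongr
              exact (hl x hx).trans (by gcongr; exact le_abs_self _)
          _ = _ := by ring)
      calc S l j y ≤ D l j * (R * |Cg|) ^ (2 * e) * Cc l j y := h2
        _ ≤ D₀ * (R * |Cg|) ^ (2 * e) * Cc l j y := by
            have := (hCpos l j).le
            gcongr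
            exact hDle l j
    have h3 := mixed_le (fun j => S l j y) (fun j => Cc l j y) (fun j => (hCpos l j).le) h1
    rw [Fintype.card_fin] at h3
    have h4 : ∏ l, Nn l y ≤ ((b : ℝ) * (D₀ * (R * |Cg|) ^ (2 * e))) *
        mixed (fun l => Dd l y) (fun l => Nn l y) :=
      le_mixed (fun l => Dd l y) (fun l => Nn l y) (fun l => (hNpos l).le)
        (fun l => (hDpos l).le) (by positivity) l h3
    calc ∏ l, Nn l y ≤ _ := h4
      _ = (b * (D₀ * |Cg| ^ (2 * e))) * R ^ (2 * e) *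
          mixed (fun l => Dd l y) (fun l => Nn l y) := by rw [mul_pow]; ring
      _ ≤ (K₁ + K₂) * R ^ (2 * e) * mixed (fun l => Dd l y) (fun l => Nn l y) := by
          gcongr
          linarith

end Vale.Agent.P299.H819
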