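import Vale.Agent.P299.H819.One

/-!
Two-sided estimate: the size of the coefficients of the equation of `θ` over `B[T]` is comparable
to the supremum of `|θ| / |T|` on the fibre.
-/

namespace Vale.Agent.P299.H819

open MvPolynomial

/-- the polynomial in one variable at the point `(y,t)` -/
noncomputable def ptPoly {B : Type*} [CommRing B] {d : ℕ} (E : ℕ → MvPolynomial (Fin d) B) (n : ℕ)
    (y : B →+* ℂ) (t : Fin d → ℂ) : Polynomial ℂ :=
  ∑ i ∈ Finset.range (n + 1), Polynomial.C (eval t (map y (E i))) * Polynomial.X ^ i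

section

variable {B : Type*} [CommRing B] {d : ℕ} (E : ℕ → MvPolynomial (Fin d) B) (n : ℕ)
    (y : B →+* ℂ) (t : Fin d → ℂ)

theorem ptPoly_eval (z : ℂ) :
    (ptPoly E n y t).eval z = ∑ i ∈ Finset.range (n + 1), eval t (map y (E i)) * z ^ i := by
  unfold ptPoly
  rw [Polynomial.eval_finsetSum]
  refine Finset.sum_congr rfl fun i _ => ?_
  simp

theorem ptPoly_coeff {i : ℕ} (hi : i ≤ n) : (ptPoly E n y t).coeff i = eval t (map y (E i)) := by
  unfold ptPoly
  rw [Polynomial.finsetSum_coeff, Finset.sum_eq_single i]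
  · simp
  · intro j _ hj
    rw [Polynomial.coeff_C_mul_X_pow, if_neg hj.symm]
  · intro h
    exact absurd (Finset.mem_range.2 (by omega)) h

theorem ptPoly_natDegree {c : B} (hE : E n = C c) (hc : y c ≠ 0) :
    (ptPoly E n y t).natDegree = n := by
  apply Polynomial.natDegree_eq_of_le_of_coeff_ne_zero
  · unfold ptPoly
    apply Polynomial.natDegree_sum_le_of_forall_le
    intro i hi
    rw [Finset.mem_range] at hi
    exact (Polynomial.natDegree_C_mul_X_pow_le _ _).trans (by omega)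
  · rw [ptPoly_coeff E n y t le_rfl, hE, map_C, eval_C]
    exact hc

theorem ptPoly_leadingCoeff {c : B} (hE : E n = C c) (hc : y c ≠ 0) :
    (ptPoly E n y t).leadingCoeff = y c := by
  rw [Polynomial.leadingCoeff, ptPoly_natDegree E n y t hE hc, ptPoly_coeff E n y t le_rfl, hE,
    map_C, eval_C]

theorem ptPoly_ne_zero {c : B} (hE : E n = C c) (hc : y c ≠ 0) : ptPoly E n y t ≠ 0 := by
  intro h
  have := ptPoly_leadingCoeff E n y t hE hc
  rw [h, Polynomial.leadingCoeff_zero] at this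
  exact hc this.symm

end

section

variable {B A : Type*} [CommRing B] [IsDomain B] [CommRing A] [IsDomain A] [Algebra B A] {d : ℕ}

/-- the value at a point of norm at most one is bounded by the coefficients -/
theorem eval_le_of_coeff {f : MvPolynomial (Fin d) ℂ} {k : ℕ} (hf : f.totalDegree ≤ k) {M : ℝ}
    (hM : ∀ β ∈ expo d k, ‖coeff β f‖ ≤ M) {t : Fin d → ℂ} (ht : ‖t‖ ≤ 1) :
    ‖eval t f‖ ≤ (expo d k).card * M := by
  rw [sum_expo hf, map_sum]
  refine (norm_sum_le _ _).trans ?_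
  rw [← nsmul_eq_mul]
  apply Finset.sum_le_card_nsmul
  intro β hβ
  rw [eval_monomial, norm_mul]
  have h1 : ‖β.prod fun n e => t n ^ e‖ ≤ 1 := by
    rw [Finsupp.prod, norm_prod]
    apply Finset.prod_le_one
    · intro i _; exact norm_nonneg _
    · intro i _
      rw [norm_pow]
      exact pow_le_one₀ (norm_nonneg _) ((norm_le_pi_norm t i).trans ht)
  calc ‖coeff β f‖ * ‖β.prod fun n e => t n ^ e‖ ≤ ‖coeff β f‖ * 1 :=
        mul_le_mul_of_nonneg_left h1 (norm_nonneg _)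
    _ ≤ M := by rw [mul_one]; exact hM β hβ

theorem totalDegree_map_le' {R S : Type*} [CommRing R] [CommRing S] {d : ℕ} (f : R →+* S)
    (p : MvPolynomial (Fin d) R) : (map f p).totalDegree ≤ p.totalDegree :=
  Finset.sup_mono (support_map_subset f p)

theorem one_mem_expo (d k : ℕ) : 1 ≤ (expo d k).card := by
  rw [Nat.one_le_iff_ne_zero, Finset.card_ne_zero]
  exact ⟨0, by rw [mem_expo]; simp⟩

theorem ctrl_est (T : Fin d → A) (θ : A) {n : ℕ} (hctrl : Ctrl B T θ n) (e : ℕ) (he : 0 < e)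
    (hdiv : ∀ k, 0 < k → k ≤ n → k ∣ e) :
    ∃ (ι : Type) (_ : Fintype ι) (h : ι → B) (c g : B) (D : ℝ), c ≠ 0 ∧ g ≠ 0 ∧ 0 < D ∧
      ∀ y : B →+* ℂ, y g ≠ 0 → y c ≠ 0 ∧ (θ ≠ 0 → 0 < ∑ k, ‖y (h k)‖ ^ 2) ∧
        (∀ x : A →+* ℂ, x.comp (algebraMap B A) = y →
          (∀ z : ℂ, ∃ x' : A →+* ℂ, x'.comp (algebraMap B A) = y ∧
            (∀ i, x' (T i) = z * x (T i)) ∧ x' θ = z * x θ) →
          ‖x θ‖ ^ (2 * e) * ‖y c‖ ^ 2 ≤ D * (∑ k, ‖y (h k)‖ ^ 2) * vn T x ^ (2 * e)) ∧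
        (∀ R : ℝ, 0 ≤ R → (∀ x : A →+* ℂ, x.comp (algebraMap B A) = y → ‖x θ‖ ≤ R * vn T x) →
          ∑ k, ‖y (h k)‖ ^ 2 ≤ D * R ^ (2 * e) * ‖y c‖ ^ 2) := by
  classical
  obtain ⟨hn, c, E, hh, hc, hh0, hEn, hEdeg, hEsum, hE0, hroots⟩ := hctrl
  obtain ⟨g₁, hg₁, hg₁'⟩ := spec_ne_zero hh hh0
  -- index type
  let ι := (i : Fin n) × expo d (n - i)
  let a : ι → B := fun k => coeff (k.2 : Fin d →₀ ℕ) (E k.1)
  let h : ι → B := fun k => a k ^ (e / (n - k.1)) * c ^ (e - e / (n - k.1))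
  have hkpos : ∀ k : ι, 0 < n - (k.1 : ℕ) := fun k => by have := k.1.2; omega
  have hek : ∀ k : ι, e / (n - (k.1 : ℕ)) * (n - k.1) = e := fun k =>
    Nat.div_mul_cancel (hdiv _ (hkpos k) (by omega))
  have hekpos : ∀ k : ι, 0 < e / (n - (k.1 : ℕ)) := fun k => by
    rcases Nat.eq_zero_or_pos (e / (n - (k.1 : ℕ))) with h0 | h0
    · have := hek k
      rw [h0, zero_mul] at this
      omega
    · exact h0
  have hekle : ∀ k : ι, e / (n - (k.1 : ℕ)) ≤ e := fun k => Nat.div_le_self _ _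
  -- `|h|` in terms of `|a|`
  have hnorm : ∀ (y : B →+* ℂ) (k : ι), ‖y (h k)‖ =
      ‖y (a k)‖ ^ (e / (n - (k.1 : ℕ))) * ‖y c‖ ^ (e - e / (n - (k.1 : ℕ))) := by
    intro y k
    simp only [h, map_mul, map_pow, norm_mul, norm_pow]
  -- constants
  choose Cb hCb0 hCb using fun k : ℕ => coeff_bound d k
  obtain ⟨C₀, hC₀1, hC₀⟩ : ∃ C₀ : ℝ, 1 ≤ C₀ ∧
      ∀ k : ι, Cb (n - (k.1 : ℕ)) * (n.choose k.1 : ℝ) ≤ C₀ := by
    have h1 : 0 ≤ ∑ i ∈ Finset.range n, Cb (n - i) * (n.choose i : ℝ) :=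
      Finset.sum_nonneg fun i _ => mul_nonneg (hCb0 _).le (Nat.cast_nonneg _)
    refine ⟨1 + ∑ i ∈ Finset.range n, Cb (n - i) * (n.choose i : ℝ), by linarith, fun k => ?_⟩
    have h2 : Cb (n - (k.1 : ℕ)) * (n.choose k.1 : ℝ) ≤
        ∑ i ∈ Finset.range n, Cb (n - i) * (n.choose i : ℝ) :=
      Finset.single_le_sum (f := fun i => Cb (n - i) * (n.choose i : ℝ))
        (fun i _ => mul_nonneg (hCb0 _).le (Nat.cast_nonneg _)) (Finset.mem_range.2 k.1.2)
    linarith
  obtain ⟨N₀, hN₀1, hN₀⟩ : ∃ N₀ : ℝ, 1 ≤ N₀ ∧ ∀ k ≤ n, ((expo d k).card : ℝ) ≤ N₀ := by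
    have h1 : ∀ k ≤ n, ((expo d k).card : ℝ) ≤
        ∑ k ∈ Finset.range (n + 1), ((expo d k).card : ℝ) := by
      intro k hk
      exact Finset.single_le_sum (f := fun k => ((expo d k).card : ℝ))
        (fun i _ => Nat.cast_nonneg _) (Finset.mem_range.2 (by omega))
    exact ⟨_, le_trans (by exact_mod_cast one_mem_expo d n) (h1 n le_rfl), h1⟩
  -- positivity of the constant term
  obtain ⟨g₀, hg₀, hg₀'⟩ : ∃ g₀ : B, g₀ ≠ 0 ∧ (θ ≠ 0 → ∃ k : ι, g₀ = a k) := by
    by_cases hθ : θ = 0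
    · exact ⟨1, one_ne_zero, fun h => absurd hθ h⟩
    · obtain ⟨β, hβ⟩ := MvPolynomial.ne_zero_iff.1 (hE0 hθ)
      have hβ' : β ∈ expo d (n - ((⟨0, hn⟩ : Fin n) : ℕ)) := by
        by_contra hcon
        exact hβ (coeff_eq_zero_of_not_mem_expo (hEdeg 0 (Nat.zero_le _)) hcon)
      exact ⟨coeff β (E 0), hβ, fun _ => ⟨⟨⟨0, hn⟩, ⟨β, hβ'⟩⟩, rfl⟩⟩
  refine ⟨ι, inferInstance, h, c ^ e, c * (g₁ * g₀),
    (2 * N₀) ^ (2 * e) + Fintype.card ι * C₀ ^ (2 * e) + 1, pow_ne_zero _ hc,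
    mul_ne_zero hc (mul_ne_zero hg₁ hg₀), by positivity, ?_⟩
  intro y hy
  rw [map_mul, map_mul, mul_ne_zero_iff, mul_ne_zero_iff] at hy
  obtain ⟨hyc, hyg₁, hyg₀⟩ := hy
  have hmapdeg : ∀ i ≤ n, (map y (E i)).totalDegree ≤ n - i := fun i hi =>
    (totalDegree_map_le' y (E i)).trans (hEdeg i hi)
  set γ : ℝ := ‖y c‖ with hγ
  have hγ0 : 0 < γ := norm_pos_iff.2 hyc
  have hce : ‖y (c ^ e)‖ ^ 2 = γ ^ (2 * e) := by
    rw [map_pow, norm_pow, ← pow_mul, mul_comm]
  rw [hce]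
  refine ⟨by rw [map_pow]; exact pow_ne_zero _ hyc, ?_, ?_, ?_⟩
  · intro hθ
    obtain ⟨k, hk⟩ := hg₀' hθ
    apply Finset.sum_pos' (fun i _ => by positivity)
    refine ⟨k, Finset.mem_univ _, ?_⟩
    rw [hnorm]
    rw [hk] at hyg₀
    have : 0 < ‖y (a k)‖ := norm_pos_iff.2 hyg₀
    positivity
  · -- upper estimate
    intro x hx hscal
    set s : ℝ := ∑ k, ‖y (h k)‖ ^ 2 with hs
    have hs0 : 0 ≤ s := Finset.sum_nonneg fun k _ => by positivity
    obtain ⟨M, hM0, hMs⟩ : ∃ M : ℝ, 0 ≤ M ∧ M ^ (2 * e) = s / γ ^ (2 * e) := by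
      refine ⟨(s / γ ^ (2 * e)) ^ (((2 * e : ℕ) : ℝ)⁻¹), by positivity, ?_⟩
      exact Real.rpow_inv_natCast_pow (by positivity) (by omega)
    have hMs' : (M * γ) ^ (2 * e) = s := by
      rw [mul_pow, hMs, div_mul_cancel₀ _ (by positivity)]
    have hak : ∀ k : ι, ‖y (a k)‖ ≤ γ * M ^ (n - (k.1 : ℕ)) := by
      intro k
      have h1 : ‖y (h k)‖ ^ 2 ≤ s := Finset.single_le_sum (f := fun k => ‖y (h k)‖ ^ 2)
        (fun i _ => by positivity) (Finset.mem_univ k)
      have h2 : ‖y (h k)‖ ^ 2 ≤ ((M * γ) ^ e) ^ 2 := by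
        rw [← pow_mul, mul_comm e 2, hMs']
        exact h1
      have h3 : ‖y (h k)‖ ≤ (M * γ) ^ e :=
        (pow_le_pow_iff_left₀ (norm_nonneg _) (by positivity) two_ne_zero).1 h2
      rw [hnorm] at h3
      have h4 : (M * γ) ^ e = (γ * M ^ (n - (k.1 : ℕ))) ^ (e / (n - (k.1 : ℕ))) *
          γ ^ (e - e / (n - (k.1 : ℕ))) := by
        rw [mul_pow, mul_pow, ← pow_mul, mul_comm (n - (k.1 : ℕ)), hek k]
        have : γ ^ e = γ ^ (e / (n - (k.1 : ℕ))) * γ ^ (e - e / (n - (k.1 : ℕ))) := by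
          rw [← pow_add]
          congr 1
          have := hekle k
          omega
        rw [this]
        ring
      rw [h4] at h3
      have h5 := le_of_mul_le_mul_right h3 (by positivity)
      exact (pow_le_pow_iff_left₀ (norm_nonneg _) (by positivity) (hekpos k).ne').1 h5
    -- bound for points with `‖T x‖ ≤ 1`
    have hbd : ∀ x' : A →+* ℂ, x'.comp (algebraMap B A) = y → vn T x' ≤ 1 →
        ‖x' θ‖ ≤ 2 * (N₀ * M) := by
      intro x' hx' hT
      have hroot : (ptPoly E n y (fun i => x' (T i))).IsRoot (x' θ) := by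
        rw [Polynomial.IsRoot, ptPoly_eval]
        have h1 := congrArg x' hEsum
        rw [map_sum, map_zero] at h1
        rw [← h1]
        refine Finset.sum_congr rfl fun i _ => ?_
        rw [map_mul, map_pow, apply_iot hx']
      have hdeg := ptPoly_natDegree E n y (fun i => x' (T i)) hEn hyc
      apply root_le (by positivity) (ptPoly_ne_zero E n y _ hEn hyc) _ hroot
      intro i hi
      rw [hdeg] at hi ⊢
      rw [ptPoly_leadingCoeff E n y _ hEn hyc, ptPoly_coeff E n y _ hi.le]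
      have h1 : ‖eval (fun i => x' (T i)) (map y (E i))‖ ≤
          (expo d (n - i)).card * (γ * M ^ (n - i)) := by
        apply eval_le_of_coeff (hmapdeg i hi.le) _ hT
        intro β hβ
        rw [coeff_map]
        exact hak ⟨⟨i, hi⟩, ⟨β, hβ⟩⟩
      refine h1.trans ?_
      have h2 : ((expo d (n - i)).card : ℝ) ≤ N₀ ^ (n - i) :=
        (hN₀ _ (by omega)).trans (le_self_pow₀ hN₀1 (by omega))
      calc ((expo d (n - i)).card : ℝ) * (γ * M ^ (n - i))
          ≤ N₀ ^ (n - i) * (γ * M ^ (n - i)) := mul_le_mul_of_nonneg_right h2 (by positivity)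
        _ = ‖y c‖ * (N₀ * M) ^ (n - i) := by rw [mul_pow, ← hγ]; ring
    have hxθ : ‖x θ‖ ≤ 2 * (N₀ * M) * vn T x := by
      rcases (vn_nonneg T x).eq_or_lt with h0 | h0
      · -- `T x = 0`
        have hT0 : ∀ i, x (T i) = 0 := fun i => by
          have := le_vn T x i
          rw [← h0] at this
          exact norm_le_zero_iff.1 this
        by_contra hcon
        push Not at hcon
        rw [← h0, mul_zero] at hcon
        obtain ⟨x', hx', hT', hθ'⟩ := hscal (((2 * (N₀ * M) + 1) / ‖x θ‖ : ℝ) : ℂ)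
        have h1 : vn T x' ≤ 1 := by
          have : (fun i => x' (T i)) = 0 := by
            ext i
            rw [hT' i, hT0 i, mul_zero]
            rfl
          unfold vn
          rw [this, norm_zero]
          exact zero_le_one
        have h2 := hbd x' hx' h1
        rw [hθ', norm_mul, Complex.norm_real, Real.norm_of_nonneg (by positivity),
          div_mul_cancel₀ _ hcon.ne'] at h2
        linarith
      · obtain ⟨x', hx', hT', hθ'⟩ := hscal (((vn T x)⁻¹ : ℝ) : ℂ)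
        have h1 : vn T x' = 1 := by
          have h2 : (fun i => x' (T i)) = (((vn T x)⁻¹ : ℝ) : ℂ) • fun i => x (T i) := by
            ext i
            rw [hT' i]
            rfl
          have h3 : vn T x' = ‖fun i => x' (T i)‖ := rfl
          rw [h3, h2, norm_smul, Complex.norm_real, Real.norm_of_nonneg (by positivity)]
          exact inv_mul_cancel₀ h0.ne'
        have h2 := hbd x' hx' h1.le
        rw [hθ', norm_mul, Complex.norm_real, Real.norm_of_nonneg (by positivity),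
          inv_mul_le_iff₀ h0] at h2
        linarith
    have hT0 := vn_nonneg T x
    calc ‖x θ‖ ^ (2 * e) * γ ^ (2 * e)
        ≤ (2 * (N₀ * M) * vn T x) ^ (2 * e) * γ ^ (2 * e) := by
          gcongr
      _ = (2 * N₀) ^ (2 * e) * ((M * γ) ^ (2 * e)) * vn T x ^ (2 * e) := by
          simp only [mul_pow]
          ring
      _ = (2 * N₀) ^ (2 * e) * s * vn T x ^ (2 * e) := by rw [hMs']
      _ ≤ ((2 * N₀) ^ (2 * e) + Fintype.card ι * C₀ ^ (2 * e) + 1) * s * vn T x ^ (2 * e) := by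
          gcongr
          have : 0 ≤ (Fintype.card ι : ℝ) * C₀ ^ (2 * e) := by positivity
          linarith
  · -- lower estimate
    intro R hR0 hR
    have hL1 : ∀ i < n, ∀ t : Fin d → ℂ, ‖eval t (map y (E i))‖ ≤
        γ * ((R * ‖t‖) ^ (n - i) * (n.choose i : ℝ)) := by
      intro i hi t
      have hcl : IsClosed {t : Fin d → ℂ | ‖eval t (map y (E i))‖ ≤
          γ * ((R * ‖t‖) ^ (n - i) * (n.choose i : ℝ))} := by
        apply isClosed_le
        · exact (MvPolynomial.continuous_eval _).norm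
        · exact continuous_const.mul
            (((continuous_const.mul continuous_norm).pow _).mul continuous_const)
      refine hcl.closure_subset_iff.2 (fun t ht => ?_) (dense_ne_zero (hg₁' y hyg₁) t)
      have hroot : ∀ z, (ptPoly E n y t).IsRoot z → ‖z‖ ≤ R * ‖t‖ := by
        intro z hz
        rw [Polynomial.IsRoot, ptPoly_eval] at hz
        obtain ⟨x, hx1, hx2, hx3⟩ := hroots y t ht z hz
        rw [← hx3, ← vn_eq_norm hx2]
        exact hR x hx1
      have h1 := coeff_le_of_roots (ptPoly_ne_zero E n y t hEn hyc) hroot i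
      rw [ptPoly_leadingCoeff E n y t hEn hyc, ptPoly_natDegree E n y t hEn hyc,
        ptPoly_coeff E n y t hi.le] at h1
      exact h1
    have hL2 : ∀ k : ι, ‖y (a k)‖ ≤ C₀ * γ * R ^ (n - (k.1 : ℕ)) := by
      intro k
      have h1 := hCb (n - (k.1 : ℕ)) (map y (E k.1)) (hmapdeg _ k.1.2.le)
        (γ * (R ^ (n - (k.1 : ℕ)) * (n.choose k.1 : ℝ))) (by
          intro t ht
          refine (hL1 k.1 k.1.2 t).trans ?_
          gcongr
          calc R * ‖t‖ ≤ R * 1 := mul_le_mul_of_nonneg_left ht hR0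
            _ = R := mul_one R) (k.2 : Fin d →₀ ℕ)
      rw [coeff_map] at h1
      calc ‖y (a k)‖ ≤ _ := h1
        _ = (Cb (n - (k.1 : ℕ)) * (n.choose k.1 : ℝ)) * (γ * R ^ (n - (k.1 : ℕ))) := by ring
        _ ≤ C₀ * (γ * R ^ (n - (k.1 : ℕ))) :=
            mul_le_mul_of_nonneg_right (hC₀ k) (by positivity)
        _ = _ := by ring
    have hL3 : ∀ k : ι, ‖y (h k)‖ ^ 2 ≤ C₀ ^ (2 * e) * (R ^ (2 * e) * γ ^ (2 * e)) := by
      intro k
      have h1 : ‖y (h k)‖ ≤ C₀ ^ e * (R ^ e * γ ^ e) := by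
        rw [hnorm]
        calc ‖y (a k)‖ ^ (e / (n - (k.1 : ℕ))) * ‖y c‖ ^ (e - e / (n - (k.1 : ℕ)))
            ≤ (C₀ * γ * R ^ (n - (k.1 : ℕ))) ^ (e / (n - (k.1 : ℕ))) *
              γ ^ (e - e / (n - (k.1 : ℕ))) := by
              rw [← hγ]
              gcongr
              exact hL2 k
          _ = C₀ ^ (e / (n - (k.1 : ℕ))) * (R ^ e * γ ^ e) := by
              rw [mul_pow, mul_pow, ← pow_mul, mul_comm (n - (k.1 : ℕ)), hek k]
              have : γ ^ e = γ ^ (e / (n - (k.1 : ℕ))) * γ ^ (e - e / (n - (k.1 : ℕ))) := by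
                rw [← pow_add]
                congr 1
                have := hekle k
                omega
              rw [this]
              ring
          _ ≤ C₀ ^ e * (R ^ e * γ ^ e) := by
              gcongr
              exact hekle k
      calc ‖y (h k)‖ ^ 2 ≤ (C₀ ^ e * (R ^ e * γ ^ e)) ^ 2 := by gcongr
        _ = _ := by ring
    calc ∑ k, ‖y (h k)‖ ^ 2 ≤ ∑ _k : ι, C₀ ^ (2 * e) * (R ^ (2 * e) * γ ^ (2 * e)) :=
          Finset.sum_le_sum fun k _ => hL3 k
      _ = Fintype.card ι * C₀ ^ (2 * e) * R ^ (2 * e) * γ ^ (2 * e) := by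
          rw [Finset.sum_const, Finset.card_univ, nsmul_eq_mul]
          ring
      _ ≤ ((2 * N₀) ^ (2 * e) + Fintype.card ι * C₀ ^ (2 * e) + 1) * R ^ (2 * e) *
          γ ^ (2 * e) := by
          gcongr
          have : 0 ≤ (2 * N₀) ^ (2 * e) := by positivity
          linarith

end

end Vale.Agent.P299.H819
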