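import Vale.Agent.P299.H819.Cone

/-!
The comparison theorem (5.1), from the uniform Noether normalisation of the cone.
-/

namespace Vale.Agent.P299.H819

open Polynomial

/-- sum of the squares of the absolute values of a tuple of functions at a point -/
noncomputable def nsq {A ι : Type*} [Fintype ι] (v : ι → A) (x : A → ℂ) : ℝ :=
  ∑ i, ‖x (v i)‖ ^ 2

theorem nsq_nonneg {A ι : Type*} [Fintype ι] (v : ι → A) (x : A → ℂ) : 0 ≤ nsq v x :=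
  Finset.sum_nonneg fun _ _ => by positivity

theorem vn_sq_le_nsq {A : Type*} [CommRing A] {n : ℕ} (v : Fin n → A) (x : A →+* ℂ) :
    vn v x ^ 2 ≤ nsq v x := by
  have := vn_pow_le v x (e := 2) (by norm_num)
  exact this

theorem nsq_le {A : Type*} [CommRing A] {n : ℕ} (v : Fin n → A) (x : A →+* ℂ) :
    nsq v x ≤ n * vn v x ^ 2 := by
  unfold nsq
  calc ∑ i, ‖x (v i)‖ ^ 2 ≤ ∑ _i : Fin n, vn v x ^ 2 :=
        Finset.sum_le_sum fun i _ => pow_le_pow_left₀ (norm_nonneg _) (le_vn v x i) 2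
    _ = _ := by rw [Finset.sum_const, Finset.card_univ, Fintype.card_fin, nsmul_eq_mul]

section

variable {B A : Type*} [CommRing B] [IsDomain B] [CommRing A] [IsDomain A] [Algebra ℂ B]
  [Algebra ℂ A] [Algebra B A] [IsScalarTower ℂ B A]

/-- output of the uniform Noether normalisation for the cone `A[X]`, `X * v` -/
def UnifNoether (B : Type*) {A : Type*} [CommRing B] [CommRing A] [Algebra ℂ B]
    [Algebra ℂ A] [Algebra B A] {n : ℕ} (v : Fin n → A) : Prop :=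
  ∃ (d : ℕ) (L : Type) (_ : Fintype L) (lam : L → Fin d → Fin n → ℂ) (g : B) (K : ℝ), g ≠ 0 ∧
    (∀ l, Function.Injective (iot B (comb v (lam l)))) ∧
    (∀ l j, ∃ (P : Polynomial (MvPolynomial (Fin d) B)) (c : B), c ≠ 0 ∧
      P.leadingCoeff = MvPolynomial.C c ∧ P.eval₂ (iot B (comb v (lam l))) (cone v j) = 0) ∧
    ∀ y : B →ₐ[ℂ] ℂ, y g ≠ 0 → ∃ l, ∀ x : A[X] →+* ℂ,
      x.comp (algebraMap B A[X]) = (y : B →+* ℂ) → vn (cone v) x ≤ K * vn (comb v (lam l)) x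

/-- the class of ring homomorphisms which are `ℂ`-linear -/
def IsPt (y : B →+* ℂ) : Prop := ∀ c : ℂ, y (algebraMap ℂ B c) = c

/-- the algebra homomorphism of a `ℂ`-linear ring homomorphism -/
def IsPt.toAlg {y : B →+* ℂ} (h : IsPt y) : B →ₐ[ℂ] ℂ := { y with commutes' := h }

theorem cone_scal {n d : ℕ} {b : ℕ} (v : Fin n → A) (w : Fin b → A) {L : Type*}
    (lam : L → Fin d → Fin n → ℂ) (x : A[X] →+* ℂ) (z : ℂ) : ∃ x' : A[X] →+* ℂ,
      x'.comp (algebraMap B A[X]) = x.comp (algebraMap B A[X]) ∧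
      (∀ l i, x' (comb v (lam l) i) = z * x (comb v (lam l) i)) ∧
      (∀ j, x' (cone v j) = z * x (cone v j)) ∧ ∀ j, x' (cone w j) = z * x (cone w j) := by
  have hC : ∀ a : A, conePt (x.comp C) (z * x X) (C a) = x (C a) := fun a => by
    simp [conePt]
  have hX : conePt (x.comp C) (z * x X) X = z * x X := conePt_X _ _
  have hcone : ∀ {m : ℕ} (u : Fin m → A) (j : Fin m),
      conePt (x.comp C) (z * x X) (cone u j) = z * x (cone u j) := by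
    intro m u j
    unfold cone
    rw [map_mul, map_mul, hC, hX]
    ring
  refine ⟨conePt (x.comp C) (z * x X), ?_, ?_, hcone v, hcone w⟩
  · rw [comp_algebraMap, comp_algebraMap, conePt_C]
  · intro l i
    unfold comb
    rw [map_sum, map_sum, Finset.mul_sum]
    refine Finset.sum_congr rfl fun j _ => ?_
    rw [map_mul, map_mul, hC, hcone]
    ring

theorem comb_bound {n d : ℕ} (v : Fin n → A) {L : Type*} [Fintype L]
    (lam : L → Fin d → Fin n → ℂ) : ∃ K : ℝ, ∀ (l : L) (x : A[X] →+* ℂ),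
      IsPt (x.comp (algebraMap B A[X])) → vn (comb v (lam l)) x ≤ K * vn (cone v) x := by
  refine ⟨∑ l, ∑ i, ∑ j, ‖lam l i j‖, fun l x hx => ?_⟩
  have hc : ∀ c : ℂ, x (C (algebraMap ℂ A c)) = c := by
    intro c
    have h1 := hx c
    rw [RingHom.comp_apply, ← IsScalarTower.algebraMap_apply ℂ B A[X]] at h1
    have h2 : (C (algebraMap ℂ A c) : A[X]) = algebraMap ℂ A[X] c := rfl
    rw [h2]
    exact h1
  have h0 := vn_nonneg (cone v) x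
  unfold vn
  rw [pi_norm_le_iff_of_nonneg (by positivity)]
  intro i
  unfold comb
  rw [map_sum]
  calc ‖∑ j, x (C (algebraMap ℂ A (lam l i j)) * cone v j)‖
      ≤ ∑ j, ‖lam l i j‖ * vn (cone v) x := by
        refine (norm_sum_le _ _).trans (Finset.sum_le_sum fun j _ => ?_)
        rw [map_mul, hc, norm_mul]
        exact mul_le_mul_of_nonneg_left (le_vn _ _ _) (norm_nonneg _)
    _ = (∑ j, ‖lam l i j‖) * vn (cone v) x := by rw [Finset.sum_mul]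
    _ ≤ (∑ l, ∑ i, ∑ j, ‖lam l i j‖) * vn (cone v) x := by
        gcongr
        calc ∑ j, ‖lam l i j‖ ≤ ∑ i, ∑ j, ‖lam l i j‖ :=
              Finset.single_le_sum (f := fun i => ∑ j, ‖lam l i j‖)
                (fun _ _ => Finset.sum_nonneg fun _ _ => norm_nonneg _) (Finset.mem_univ i)
          _ ≤ _ := Finset.single_le_sum (f := fun l => ∑ i, ∑ j, ‖lam l i j‖)
                (fun _ _ => Finset.sum_nonneg fun _ _ =>
                  Finset.sum_nonneg fun _ _ => norm_nonneg _) (Finset.mem_univ l)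

theorem sup_core [Algebra.FiniteType ℂ B] [Algebra.FiniteType ℂ A]
    {a b : ℕ} (v : Fin (a + 1) → A) (hv : v 0 = 1) (w : Fin b → A) (hw : ∃ j, w j ≠ 0)
    (hgen : ∀ x : A, IsAlgebraic (Algebra.adjoin B (Set.range v)) x)
    (σ : A) (hσ : σ ≠ 0) (r : ℕ)
    (h4 : ∃ g : B, g ≠ 0 ∧ ∀ y : B →+* ℂ, IsPt y → y g ≠ 0 → ∃ K : ℝ, ∀ x : A →+* ℂ,
      x.comp (algebraMap B A) = y → ‖x σ‖ ≤ K * vn v x ^ r)
    (h5 : ∀ m₀ : ℕ, ∃ m ≥ m₀, ∃ g : B, g ≠ 0 ∧ ∀ y : B →+* ℂ, IsPt y → y g ≠ 0 → ∃ K : ℝ,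
      ∀ x : A →+* ℂ, x.comp (algebraMap B A) = y → ‖x σ‖ * vn w x ^ m ≤ K * vn v x ^ (m + r))
    (hA : UnifNoether B v) :
    ∃ (f₁ f₂ : (B →+* ℂ) → ℝ) (e : ℕ) (g : B) (D : ℝ), SOS B f₁ ∧ SOS B f₂ ∧ 0 < e ∧ g ≠ 0 ∧
      0 < D ∧ ∀ y : B →+* ℂ, IsPt y → y g ≠ 0 → 0 < f₁ y ∧ 0 < f₂ y ∧
        (∃ x : A →+* ℂ, x.comp (algebraMap B A) = y) ∧
        (∀ x : A →+* ℂ, x.comp (algebraMap B A) = y →
          vn w x ^ (2 * e) * f₁ y ≤ D * f₂ y * vn v x ^ (2 * e)) ∧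
        (∀ R : ℝ, 0 ≤ R → (∀ x : A →+* ℂ, x.comp (algebraMap B A) = y → vn w x ≤ R * vn v x) →
          f₂ y ≤ D * R ^ (2 * e) * f₁ y) := by
  classical
  obtain ⟨d, L, instL, lam, gA, KA, hgA, hinj, hint, hgood⟩ := hA
  have hσ' : (X ^ r * C σ : A[X]) ≠ 0 :=
    mul_ne_zero (pow_ne_zero _ X_ne_zero) (by rw [Ne, C_eq_zero]; exact hσ)
  have hw' : ∃ j, cone w j ≠ 0 := by
    obtain ⟨j, hj⟩ := hw
    exact ⟨j, mul_ne_zero X_ne_zero (by rw [Ne, C_eq_zero]; exact hj)⟩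
  have hpt : ∀ g : B, g ≠ 0 → ∃ y : B →+* ℂ, IsPt y ∧ y g ≠ 0 := by
    intro g hg
    obtain ⟨y, hy⟩ := Vale.Agent.P299.H348.exists_point hg
    exact ⟨y, fun c => y.commutes c, hy⟩
  have hlift : ∀ l j, Lift (iot B (comb v (lam l))) ![X ^ r * C σ, cone w j] := by
    intro l j
    have halg := iot_algebraic v hv hgen (comb v (lam l)) (hinj l) (fun j => by
      obtain ⟨P, c, hc, hlc, hP⟩ := hint l j
      refine ⟨P, ?_, hP⟩
      rintro rfl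
      rw [leadingCoeff_zero] at hlc
      exact hc (by rwa [eq_comm, MvPolynomial.C_eq_zero] at hlc))
    exact Vale.Agent.P299.H348.liftHom (iot B (comb v (lam l))) (hinj l) (iot_finiteType _)
      halg _
  have hscal := cone_scal (B := B) v w lam
  have hfin : ∀ l, ∃ g : B, g ≠ 0 ∧ ∀ y : B →+* ℂ, IsPt y → y g ≠ 0 → ∃ K : ℝ,
      ∀ x : A[X] →+* ℂ, x.comp (algebraMap B A[X]) = y →
        vn (cone v) x ≤ K * vn (comb v (lam l)) x := by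
    intro l
    choose P c hc hlc hP using hint l
    refine ⟨∏ j, c j, Finset.prod_ne_zero_iff.2 fun j _ => hc j, fun y _ hy => ?_⟩
    rw [map_prod] at hy
    have h1 : ∀ j, ∃ K : ℝ, 0 ≤ K ∧ ∀ x : A[X] →+* ℂ, x.comp (algebraMap B A[X]) = y →
        ‖x (cone v j)‖ ≤ K * vn (comb v (lam l)) x := fun j =>
      fin_of_integral (comb v (lam l)) (cone v j) (P j) (c j) (hlc j) (hP j) (by
        intro x z
        obtain ⟨x', h1, h2, h3, _⟩ := hscal x z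
        exact ⟨x', h1, h2 l, h3 j⟩) y (Finset.prod_ne_zero_iff.1 hy j (Finset.mem_univ j))
    choose K hK0 hK using h1
    refine ⟨∑ j, K j, fun x hx => ?_⟩
    have h0 := vn_nonneg (comb v (lam l)) x
    have h2 : 0 ≤ ∑ j, K j := Finset.sum_nonneg fun j _ => hK0 j
    have h3 : vn (cone v) x ≤ (∑ j, K j) * vn (comb v (lam l)) x := by
      unfold vn at h0 ⊢
      rw [pi_norm_le_iff_of_nonneg (mul_nonneg h2 h0)]
      intro j
      refine (hK j x hx).trans ?_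
      exact mul_le_mul_of_nonneg_right
        (Finset.single_le_sum (f := fun j => K j) (fun i _ => hK0 i) (Finset.mem_univ j)) h0
    exact h3
  have hgood' : ∃ g : B, g ≠ 0 ∧ ∃ K : ℝ, ∀ y : B →+* ℂ, IsPt y → y g ≠ 0 → ∃ l,
      ∀ x : A[X] →+* ℂ, x.comp (algebraMap B A[X]) = y →
        vn (cone v) x ≤ K * vn (comb v (lam l)) x :=
    ⟨gA, hgA, KA, fun y hyY hy => hgood hyY.toAlg hy⟩
  have hvn : ∀ {m : ℕ} (u : Fin m → A) (x : A[X] →+* ℂ),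
      vn (cone u) x = ‖x X‖ * vn u (x.comp C) := fun u x => vn_cone u x
  have h4' : ∃ g : B, g ≠ 0 ∧ ∀ y : B →+* ℂ, IsPt y → y g ≠ 0 → ∃ K : ℝ, ∀ x : A[X] →+* ℂ,
      x.comp (algebraMap B A[X]) = y → ‖x (X ^ r * C σ)‖ ≤ K * vn (cone v) x ^ r := by
    obtain ⟨g, hg, h⟩ := h4
    refine ⟨g, hg, fun y hyY hy => ?_⟩
    obtain ⟨K, hK⟩ := h y hyY hy
    refine ⟨K, fun x hx => ?_⟩
    rw [comp_algebraMap] at hx
    have h1 := hK (x.comp C) hx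
    rw [vn_cone, map_mul, map_pow, norm_mul, norm_pow, mul_pow]
    calc ‖x X‖ ^ r * ‖x (C σ)‖ ≤ ‖x X‖ ^ r * (K * vn v (x.comp C) ^ r) :=
          mul_le_mul_of_nonneg_left h1 (by positivity)
      _ = _ := by ring
  have h5' : ∀ m₀ : ℕ, ∃ m ≥ m₀, ∃ g : B, g ≠ 0 ∧ ∀ y : B →+* ℂ, IsPt y → y g ≠ 0 → ∃ K : ℝ,
      ∀ x : A[X] →+* ℂ, x.comp (algebraMap B A[X]) = y →
        ‖x (X ^ r * C σ)‖ * vn (cone w) x ^ m ≤ K * vn (cone v) x ^ (m + r) := by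
    intro m₀
    obtain ⟨m, hm, g, hg, h⟩ := h5 m₀
    refine ⟨m, hm, g, hg, fun y hyY hy => ?_⟩
    obtain ⟨K, hK⟩ := h y hyY hy
    refine ⟨K, fun x hx => ?_⟩
    rw [comp_algebraMap] at hx
    have h1 := hK (x.comp C) hx
    rw [vn_cone, vn_cone, map_mul, map_pow, norm_mul, norm_pow, mul_pow, mul_pow]
    calc ‖x X‖ ^ r * ‖x (C σ)‖ * (‖x X‖ ^ m * vn w (x.comp C) ^ m)
        = (‖x X‖ ^ (m + r)) * (‖(x.comp C) σ‖ * vn w (x.comp C) ^ m) := by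
          rw [RingHom.comp_apply, pow_add]; ring
      _ ≤ (‖x X‖ ^ (m + r)) * (K * vn v (x.comp C) ^ (m + r)) :=
          mul_le_mul_of_nonneg_left h1 (by positivity)
      _ = _ := by ring
  obtain ⟨f₁, f₂, e, g, D, hf₁, hf₂, he, hg, hD, hmain⟩ := core IsPt hpt (cone v) (cone w)
    (X ^ r * C σ) hσ' r hw' (fun l => comb v (lam l)) hinj hlift (by
      intro x z
      obtain ⟨x', h1, h2, _, h3⟩ := hscal x z
      exact ⟨x', h1, h2, h3⟩) (comb_bound v lam) hfin hgood' h4' h5'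
  refine ⟨f₁, f₂, e, g, D, hf₁, hf₂, he, hg, hD, fun y hyY hy => ?_⟩
  obtain ⟨hp1, hp2, ⟨x₁, hx₁⟩, hup, hlow⟩ := hmain y hyY hy
  refine ⟨hp1, hp2, ⟨x₁.comp C, by rw [← comp_algebraMap]; exact hx₁⟩, ?_, ?_⟩
  · intro x hx
    have h1 := hup (conePt x 1) (by rw [comp_algebraMap, conePt_C]; exact hx)
    rw [vn_cone, vn_cone, conePt_C, conePt_X, norm_one, one_mul, one_mul] at h1
    exact h1
  · intro R hR0 hR
    apply hlow R hR0
    intro x hx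
    rw [comp_algebraMap] at hx
    rw [vn_cone, vn_cone]
    calc ‖x X‖ * vn w (x.comp C) ≤ ‖x X‖ * (R * vn v (x.comp C)) :=
          mul_le_mul_of_nonneg_left (hR _ hx) (norm_nonneg _)
      _ = _ := by ring

/-- the points of `A` over the point `y` of `B` -/
def Over (y : B →ₐ[ℂ] ℂ) (x : A →ₐ[ℂ] ℂ) : Prop := ∀ b : B, x (algebraMap B A b) = y b

/-- a ring homomorphism over a `ℂ`-algebra homomorphism is a `ℂ`-algebra homomorphism -/
theorem exists_over {y : B →ₐ[ℂ] ℂ} (x : A →+* ℂ)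
    (hx : x.comp (algebraMap B A) = (y : B →+* ℂ)) :
    ∃ x' : A →ₐ[ℂ] ℂ, Over y x' ∧ (x' : A →+* ℂ) = x := by
  have hc : ∀ c : ℂ, x (algebraMap ℂ A c) = c := by
    intro c
    have h1 := congrArg (fun f => f (algebraMap ℂ B c)) hx
    simp only [RingHom.comp_apply] at h1
    rw [← IsScalarTower.algebraMap_apply ℂ B A] at h1
    rw [h1]
    exact y.commutes c
  refine ⟨{ x with commutes' := hc }, fun b => ?_, ?_⟩
  · exact congrArg (fun f => f b) hx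
  · ext a
    rfl

theorem over_comp {y : B →ₐ[ℂ] ℂ} {x : A →ₐ[ℂ] ℂ} (h : Over y x) :
    (x : A →+* ℂ).comp (algebraMap B A) = (y : B →+* ℂ) := by
  ext b
  exact h b

/-- **(5.1)** comparison of the supremum on the fibres with a quotient of sums of squares of
functions on the base. -/
theorem sup_comparison_of [Algebra.FiniteType ℂ B] [Algebra.FiniteType ℂ A]
    {a b : ℕ} (v : Fin (a + 1) → A) (hv : v 0 = 1) (w : Fin b → A) (hw : ∃ j, w j ≠ 0)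
    (hgen : ∀ x : A, IsAlgebraic (Algebra.adjoin B (Set.range v)) x)
    (σ : A) (hσ : σ ≠ 0) (r : ℕ)
    (h4 : ∃ g : B, g ≠ 0 ∧ ∀ y : B →ₐ[ℂ] ℂ, y g ≠ 0 → ∃ K : ℝ, ∀ x : A →ₐ[ℂ] ℂ, Over y x →
      ‖x σ‖ ^ 2 ≤ K * nsq v x ^ r)
    (h5 : ∀ m₀ : ℕ, ∃ m ≥ m₀, ∃ g : B, g ≠ 0 ∧ ∀ y : B →ₐ[ℂ] ℂ, y g ≠ 0 → ∃ K : ℝ,
      ∀ x : A →ₐ[ℂ] ℂ, Over y x → ‖x σ‖ ^ 2 * nsq w x ^ m ≤ K * nsq v x ^ (m + r))
    (hA : UnifNoether B v) :
    ∃ (g : B) (e n₁ n₂ : ℕ) (h₁ : Fin n₁ → B) (h₂ : Fin n₂ → B) (D : ℝ), g ≠ 0 ∧ 0 < e ∧ 0 < D ∧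
      ∀ y : B →ₐ[ℂ] ℂ, y g ≠ 0 → (∃ x : A →ₐ[ℂ] ℂ, Over y x) ∧
        0 < ∑ k, ‖y (h₁ k)‖ ^ 2 ∧ 0 < ∑ k, ‖y (h₂ k)‖ ^ 2 ∧
        ∃ ρ : ℝ, 0 < ρ ∧ IsLUB {s : ℝ | ∃ x : A →ₐ[ℂ] ℂ, Over y x ∧ s = nsq w x / nsq v x} ρ ∧
          ρ ^ e * ∑ k, ‖y (h₁ k)‖ ^ 2 ≤ D * ∑ k, ‖y (h₂ k)‖ ^ 2 ∧
          ∑ k, ‖y (h₂ k)‖ ^ 2 ≤ D * (ρ ^ e * ∑ k, ‖y (h₁ k)‖ ^ 2) := by
  classical
  have hnsq1 : ∀ {m : ℕ} (u : Fin m → A) (x : A →+* ℂ), vn u x ^ 2 ≤ nsq u x :=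
    fun u x => vn_sq_le_nsq u x
  have hnsq2 : ∀ {m : ℕ} (u : Fin m → A) (x : A →+* ℂ), nsq u x ≤ m * vn u x ^ 2 :=
    fun u x => nsq_le u x
  obtain ⟨f₁, f₂, e, g, D, hf₁, hf₂, he, hg, hD, hmain⟩ := sup_core (B := B) v hv w hw hgen σ hσ r
    (by
      obtain ⟨g, hg, h⟩ := h4
      refine ⟨g, hg, fun y hyY hy => ?_⟩
      obtain ⟨K, hK⟩ := h hyY.toAlg hy
      refine ⟨Real.sqrt (|K| * ((a + 1 : ℕ) : ℝ) ^ r), fun x hx => ?_⟩
      obtain ⟨x', hx', rfl⟩ := exists_over (y := hyY.toAlg) x hx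
      have h1 := hK x' hx'
      have h0 := vn_nonneg v (x' : A →+* ℂ)
      have h2 : ‖x' σ‖ ^ 2 ≤ (Real.sqrt (|K| * ((a + 1 : ℕ) : ℝ) ^ r) *
          vn v (x' : A →+* ℂ) ^ r) ^ 2 := by
        rw [mul_pow, Real.sq_sqrt (by positivity)]
        calc ‖x' σ‖ ^ 2 ≤ K * nsq v x' ^ r := h1
          _ ≤ |K| * nsq v x' ^ r :=
              mul_le_mul_of_nonneg_right (le_abs_self _) (pow_nonneg (nsq_nonneg _ _) _)
          _ ≤ |K| * (((a + 1 : ℕ) : ℝ) * vn v (x' : A →+* ℂ) ^ 2) ^ r := by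
              have := nsq_nonneg v x'
              gcongr
              exact hnsq2 v (x' : A →+* ℂ)
          _ = _ := by rw [mul_pow]; ring
      exact (pow_le_pow_iff_left₀ (norm_nonneg _) (by positivity) two_ne_zero).1 h2)
    (by
      intro m₀
      obtain ⟨m, hm, g, hg, h⟩ := h5 m₀
      refine ⟨m, hm, g, hg, fun y hyY hy => ?_⟩
      obtain ⟨K, hK⟩ := h hyY.toAlg hy
      refine ⟨Real.sqrt (|K| * ((a + 1 : ℕ) : ℝ) ^ (m + r)), fun x hx => ?_⟩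
      obtain ⟨x', hx', rfl⟩ := exists_over (y := hyY.toAlg) x hx
      have h1 := hK x' hx'
      have h0 := vn_nonneg v (x' : A →+* ℂ)
      have h00 := vn_nonneg w (x' : A →+* ℂ)
      have h2 : (‖x' σ‖ * vn w (x' : A →+* ℂ) ^ m) ^ 2 ≤
          (Real.sqrt (|K| * ((a + 1 : ℕ) : ℝ) ^ (m + r)) *
          vn v (x' : A →+* ℂ) ^ (m + r)) ^ 2 := by
        rw [mul_pow, mul_pow, Real.sq_sqrt (by positivity)]
        calc ‖x' σ‖ ^ 2 * (vn w (x' : A →+* ℂ) ^ m) ^ 2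
            = ‖x' σ‖ ^ 2 * (vn w (x' : A →+* ℂ) ^ 2) ^ m := by ring
          _ ≤ ‖x' σ‖ ^ 2 * nsq w x' ^ m := by
              gcongr
              exact hnsq1 w (x' : A →+* ℂ)
          _ ≤ K * nsq v x' ^ (m + r) := h1
          _ ≤ |K| * nsq v x' ^ (m + r) :=
              mul_le_mul_of_nonneg_right (le_abs_self _) (pow_nonneg (nsq_nonneg _ _) _)
          _ ≤ |K| * (((a + 1 : ℕ) : ℝ) * vn v (x' : A →+* ℂ) ^ 2) ^ (m + r) := by
              have := nsq_nonneg v x'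
              gcongr
              exact hnsq2 v (x' : A →+* ℂ)
          _ = _ := by rw [mul_pow]; ring
      exact (pow_le_pow_iff_left₀ (by positivity) (by positivity) two_ne_zero).1 h2)
    hA
  obtain ⟨ι₁, _, h₁, hh₁⟩ := hf₁
  obtain ⟨ι₂, _, h₂, hh₂⟩ := hf₂
  set c₁ : ℝ := (b : ℝ) ^ e + 1 with hc₁
  set c₂ : ℝ := ((a + 1 : ℕ) : ℝ) ^ e with hc₂
  refine ⟨g, e, Fintype.card ι₁, Fintype.card ι₂, fun k => h₁ ((Fintype.equivFin ι₁).symm k),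
    fun k => h₂ ((Fintype.equivFin ι₂).symm k), c₁ * D + D * c₂, hg, he, by positivity,
    fun y hy => ?_⟩
  have hs₁ : ∑ k, ‖y (h₁ ((Fintype.equivFin ι₁).symm k))‖ ^ 2 = f₁ (y : B →+* ℂ) := by
    rw [hh₁]
    exact Equiv.sum_comp (Fintype.equivFin ι₁).symm (fun k => ‖y (h₁ k)‖ ^ 2)
  have hs₂ : ∑ k, ‖y (h₂ ((Fintype.equivFin ι₂).symm k))‖ ^ 2 = f₂ (y : B →+* ℂ) := by
    rw [hh₂]
    exact Equiv.sum_comp (Fintype.equivFin ι₂).symm (fun k => ‖y (h₂ k)‖ ^ 2)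
  rw [hs₁, hs₂]
  obtain ⟨hp1, hp2, ⟨x₁, hx₁⟩, hup, hlow⟩ := hmain (y : B →+* ℂ) (fun c => y.commutes c) hy
  obtain ⟨x₀, hx₀, -⟩ := exists_over x₁ hx₁
  have hvpos : ∀ x : A →ₐ[ℂ] ℂ, 1 ≤ vn v (x : A →+* ℂ) := by
    intro x
    have h1 := le_vn v (x : A →+* ℂ) 0
    rw [hv, map_one, norm_one] at h1
    exact h1
  have hnpos : ∀ x : A →ₐ[ℂ] ℂ, 0 < nsq v x := by
    intro x
    have h1 := hnsq1 v (x : A →+* ℂ)
    have h2 := hvpos x
    have h3 : 0 < vn v (x : A →+* ℂ) ^ 2 := by positivity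
    exact lt_of_lt_of_le h3 h1
  -- the upper bound in terms of `nsq`
  have hup' : ∀ x : A →ₐ[ℂ] ℂ, Over y x →
      (nsq w x / nsq v x) ^ e * f₁ (y : B →+* ℂ) ≤ (b : ℝ) ^ e * D * f₂ (y : B →+* ℂ) := by
    intro x hx
    have h1 := hup (x : A →+* ℂ) (over_comp hx)
    have h2 := hnsq2 w (x : A →+* ℂ)
    have h3 := hnsq1 v (x : A →+* ℂ)
    have h0 := vn_nonneg v (x : A →+* ℂ)
    have h00 := vn_nonneg w (x : A →+* ℂ)
    have hnw := nsq_nonneg w x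
    rw [div_pow, div_mul_eq_mul_div, div_le_iff₀ (pow_pos (hnpos x) e)]
    calc nsq w x ^ e * f₁ (y : B →+* ℂ)
        ≤ ((b : ℝ) * vn w (x : A →+* ℂ) ^ 2) ^ e * f₁ (y : B →+* ℂ) := by
          gcongr
          exact h2
      _ = (b : ℝ) ^ e * (vn w (x : A →+* ℂ) ^ (2 * e) * f₁ (y : B →+* ℂ)) := by
          rw [mul_pow, ← pow_mul]; ring
      _ ≤ (b : ℝ) ^ e * (D * f₂ (y : B →+* ℂ) * vn v (x : A →+* ℂ) ^ (2 * e)) := by
          gcongr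
      _ = (b : ℝ) ^ e * (D * f₂ (y : B →+* ℂ) * (vn v (x : A →+* ℂ) ^ 2) ^ e) := by
          rw [← pow_mul]
      _ ≤ (b : ℝ) ^ e * (D * f₂ (y : B →+* ℂ) * (nsq v x) ^ e) := by
          gcongr
          exact h3
      _ = _ := by ring
  -- the supremum
  set S : Set ℝ := {s : ℝ | ∃ x : A →ₐ[ℂ] ℂ, Over y x ∧ s = nsq w x / nsq v x} with hS
  have hSne : S.Nonempty := ⟨_, x₀, hx₀, rfl⟩
  have hSnn : ∀ s ∈ S, 0 ≤ s := by
    rintro s ⟨x, _, rfl⟩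
    exact div_nonneg (nsq_nonneg _ _) (nsq_nonneg _ _)
  have hSbd : BddAbove S := by
    refine ⟨(b : ℝ) ^ e * D * f₂ (y : B →+* ℂ) / f₁ (y : B →+* ℂ) + 1, ?_⟩
    rintro s ⟨x, hx, rfl⟩
    by_contra hcon
    push Not at hcon
    have h1 := hup' x hx
    rw [← le_div_iff₀ hp1] at h1
    have h2 : 1 ≤ nsq w x / nsq v x := by
      have : 0 ≤ (b : ℝ) ^ e * D * f₂ (y : B →+* ℂ) / f₁ (y : B →+* ℂ) := by positivity
      linarith
    have h3 : nsq w x / nsq v x ≤ (nsq w x / nsq v x) ^ e := le_self_pow₀ h2 he.ne'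
    linarith
  have hlub := isLUB_csSup hSne hSbd
  set ρ := sSup S with hρ
  have hρ0 : 0 ≤ ρ := (hSnn _ hSne.some_mem).trans (hlub.1 hSne.some_mem)
  -- the lower bound
  have hlow' : f₂ (y : B →+* ℂ) ≤ D * c₂ * (ρ ^ e * f₁ (y : B →+* ℂ)) := by
    have h1 := hlow (Real.sqrt (ρ * ((a + 1 : ℕ) : ℝ))) (Real.sqrt_nonneg _) (by
      intro x hx
      obtain ⟨x', hx', rfl⟩ := exists_over x hx
      have h0 := vn_nonneg v (x' : A →+* ℂ)
      have h2 : vn w (x' : A →+* ℂ) ^ 2 ≤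
          (Real.sqrt (ρ * ((a + 1 : ℕ) : ℝ)) * vn v (x' : A →+* ℂ)) ^ 2 := by
        rw [mul_pow, Real.sq_sqrt (by positivity)]
        have h3 : nsq w x' / nsq v x' ≤ ρ := hlub.1 ⟨x', hx', rfl⟩
        rw [div_le_iff₀ (hnpos x')] at h3
        calc vn w (x' : A →+* ℂ) ^ 2 ≤ nsq w x' := hnsq1 w (x' : A →+* ℂ)
          _ ≤ ρ * nsq v x' := h3
          _ ≤ ρ * (((a + 1 : ℕ) : ℝ) * vn v (x' : A →+* ℂ) ^ 2) :=
              mul_le_mul_of_nonneg_left (hnsq2 v (x' : A →+* ℂ)) hρ0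
          _ = _ := by ring
      exact (pow_le_pow_iff_left₀ (vn_nonneg _ _) (by positivity) two_ne_zero).1 h2)
    have h4 : Real.sqrt (ρ * ((a + 1 : ℕ) : ℝ)) ^ (2 * e) = ρ ^ e * c₂ := by
      rw [pow_mul, Real.sq_sqrt (by positivity), mul_pow]
    rw [h4] at h1
    calc f₂ (y : B →+* ℂ) ≤ _ := h1
      _ = _ := by ring
  have hρpos : 0 < ρ := by
    rcases hρ0.eq_or_lt with h0 | h0
    · exfalso
      rw [← h0, zero_pow he.ne', zero_mul, mul_zero] at hlow'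
      linarith
    · exact h0
  have hup'' : ρ ^ e * f₁ (y : B →+* ℂ) ≤ (b : ℝ) ^ e * D * f₂ (y : B →+* ℂ) := by
    rw [← le_div_iff₀ hp1]
    by_contra hcon
    push Not at hcon
    -- pick an element of `S` close to `ρ`
    have h1 : ((b : ℝ) ^ e * D * f₂ (y : B →+* ℂ) / f₁ (y : B →+* ℂ)) ^ ((e : ℝ)⁻¹) < ρ := by
      have h2 := Real.rpow_lt_rpow (z := (e : ℝ)⁻¹) (by positivity) hcon (by positivity)
      rwa [Real.pow_rpow_inv_natCast hρ0 he.ne'] at h2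
    obtain ⟨s, hs, hs1⟩ := exists_lt_of_lt_csSup hSne h1
    obtain ⟨x, hx, rfl⟩ := hs
    have h3 := hup' x hx
    rw [← le_div_iff₀ hp1] at h3
    have h4 : nsq w x / nsq v x ≤
        ((b : ℝ) ^ e * D * f₂ (y : B →+* ℂ) / f₁ (y : B →+* ℂ)) ^ ((e : ℝ)⁻¹) := by
      have h5 := Real.rpow_le_rpow (z := (e : ℝ)⁻¹)
        (pow_nonneg (div_nonneg (nsq_nonneg w x) (nsq_nonneg v x)) e) h3 (by positivity)
      rwa [Real.pow_rpow_inv_natCast (div_nonneg (nsq_nonneg w x) (nsq_nonneg v x)) he.ne'] at h5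
    linarith
  refine ⟨⟨x₀, hx₀⟩, hp1, hp2, ρ, hρpos, hlub, ?_, ?_⟩
  · calc ρ ^ e * f₁ (y : B →+* ℂ) ≤ (b : ℝ) ^ e * D * f₂ (y : B →+* ℂ) := hup''
      _ ≤ (c₁ * D + D * c₂) * f₂ (y : B →+* ℂ) := by
          gcongr
          have : 0 ≤ D * c₂ := by positivity
          rw [hc₁]
          nlinarith
  · calc f₂ (y : B →+* ℂ) ≤ D * c₂ * (ρ ^ e * f₁ (y : B →+* ℂ)) := hlow'
      _ ≤ (c₁ * D + D * c₂) * (ρ ^ e * f₁ (y : B →+* ℂ)) := by
          gcongr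
          have : 0 ≤ c₁ * D := by positivity
          linarith

end

end Vale.Agent.P299.H819
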