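import Mathlib

/-!
Specialisation lemmas from linear algebra over the fraction field `K` of a domain `B`
to linear algebra at a point `y : B →+* k`.
-/

namespace Vale.Agent.P299.H819

open Finset Module

/-- Linear independence over the fraction field persists at every point outside a hypersurface. -/
theorem spec_linInd {B K : Type*} [CommRing B] [IsDomain B] [Field K] [Algebra B K]
    [IsFractionRing B K] {J S : Type*} [Fintype J] (T : Finset S) (u : J → S → B)
    (h : ∀ c : J → K, (∀ s ∈ T, ∑ j, c j * algebraMap B K (u j s) = 0) → c = 0) :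
    ∃ g : B, g ≠ 0 ∧ ∀ (y : B →+* ℂ), y g ≠ 0 →
      ∀ c : J → ℂ, (∀ s ∈ T, ∑ j, c j * y (u j s) = 0) → c = 0 := by
  classical
  let Φ : (J → K) →ₗ[K] (T → K) :=
    { toFun := fun c s => ∑ j, c j * algebraMap B K (u j s)
      map_add' := by intro c d; ext s; simp [add_mul, Finset.sum_add_distrib]
      map_smul' := by intro a c; ext s; simp [Finset.mul_sum, mul_assoc] }
  have hΦ : LinearMap.ker Φ = ⊥ := by
    rw [LinearMap.ker_eq_bot']
    intro c hc
    apply h
    intro s hs
    have := congrFun hc ⟨s, hs⟩
    simpa [Φ] using this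
  obtain ⟨G, hG⟩ := LinearMap.exists_leftInverse_of_injective Φ hΦ
  -- matrix of `G`
  let N : T → J → K := fun s j => G (Pi.single s 1) j
  have hN : ∀ i j, ∑ s : T, algebraMap B K (u i s) * N s j = if i = j then 1 else 0 := by
    intro i j
    have h1 : Φ (Pi.single i 1) = fun s : T => algebraMap B K (u i s) := by
      ext s
      simp [Φ, Pi.single_apply]
    have h2 : (fun s : T => algebraMap B K (u i s)) =
        ∑ s : T, algebraMap B K (u i s) • (Pi.single s (1 : K) : T → K) := by
      ext t
      simp only [Finset.sum_apply, Pi.smul_apply, Pi.single_apply, smul_eq_mul, mul_ite, mul_one,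
        mul_zero, Finset.sum_ite_eq, Finset.mem_univ, if_true]
    have h3 : G (Φ (Pi.single i 1)) = Pi.single i 1 := by
      have := LinearMap.congr_fun hG (Pi.single i 1)
      simpa using this
    rw [h1, h2] at h3
    simp only [map_sum, map_smul] at h3
    have h4 := congrFun h3 j
    simp only [Finset.sum_apply, Pi.smul_apply, smul_eq_mul] at h4
    rw [Pi.single_apply] at h4
    simpa [N, eq_comm] using h4
  obtain ⟨g, hg⟩ := IsLocalization.exist_integer_multiples_of_finite (nonZeroDivisors B)
    (fun p : T × J => N p.1 p.2)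
  choose N' hN' using hg
  have hg0 : (g : B) ≠ 0 := nonZeroDivisors.coe_ne_zero g
  have key : ∀ i j, ∑ s : T, u i s * N' (s, j) = if i = j then (g : B) else 0 := by
    intro i j
    apply IsFractionRing.injective B K
    rw [map_sum]
    have : ∀ s : T, algebraMap B K (u i s * N' (s, j)) =
        algebraMap B K g * (algebraMap B K (u i s) * N s j) := by
      intro s
      rw [map_mul, hN', Algebra.smul_def]
      ring
    simp only [this]
    rw [← Finset.mul_sum, hN]
    split_ifs <;> simp
  refine ⟨g, hg0, fun y hy c hc => ?_⟩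
  ext j
  have h5 : ∑ s : T, (∑ i, c i * y (u i s)) * y (N' (s, j)) = 0 := by
    apply Finset.sum_eq_zero
    intro s _
    rw [hc s s.2, zero_mul]
  have h6 : ∑ s : T, (∑ i, c i * y (u i s)) * y (N' (s, j)) = c j * y g := by
    calc ∑ s : T, (∑ i, c i * y (u i s)) * y (N' (s, j))
        = ∑ i, c i * y (∑ s : T, u i s * N' (s, j)) := by
          simp only [Finset.sum_mul, map_sum, map_mul, Finset.mul_sum]
          rw [Finset.sum_comm]
          simp only [mul_assoc]
      _ = c j * y g := by
          simp only [key]
          rw [Finset.sum_eq_single j]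
          · simp
          · intro b _ hb
            simp [hb]
          · simp
  rw [h6] at h5
  simpa [hy] using h5

/-- If the `f i` span a space of dimension at most `r` over `K`, then at every point `y` outside
a hypersurface, every family of more than `r` complex linear combinations of the functions
`x ↦ x (f i)` on the fibre over `y` is linearly dependent. -/
theorem spec_rank {B K A F : Type*} [CommRing B] [IsDomain B] [Field K] [Algebra B K]
    [IsFractionRing B K] [CommRing A] [Algebra B A] [Field F] [Algebra A F] [Algebra B F]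
    [IsScalarTower B A F] [Algebra K F] [IsScalarTower B K F]
    (hinj : Function.Injective (algebraMap A F))
    {I : Type*} [Fintype I] (f : I → A) (r : ℕ)
    (hr : finrank K (Submodule.span K (Set.range (fun i => algebraMap A F (f i)))) ≤ r) :
    ∃ g : B, g ≠ 0 ∧ ∀ (y : B →+* ℂ), y g ≠ 0 → ∀ (J : Type) [Fintype J], r < Fintype.card J →
      ∀ M : J → I → ℂ, ∃ c : J → ℂ, c ≠ 0 ∧ ∀ x : A →+* ℂ, x.comp (algebraMap B A) = y →
        ∑ j, c j * ∑ i, M j i * x (f i) = 0 := by
  classical
  let f' : I → F := fun i => algebraMap A F (f i)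
  obtain ⟨b, hbs, hbspan, hbli⟩ := exists_linearIndependent K (Set.range f')
  have hbfin : b.Finite := (Set.finite_range f').subset hbs
  have hbf : Fintype b := hbfin.fintype
  have hcard : Fintype.card b ≤ r := by
    have h1 := finrank_span_set_eq_card (R := K) hbli
    rw [Set.toFinset_card] at h1
    rw [← h1, hbspan]
    exact hr
  have hτ : ∀ j : b, ∃ i, f' i = j := fun j => hbs j.2
  choose τ hτ using hτ
  have hmem : ∀ i, ∃ κ : b → K, ∑ j, κ j • (j : F) = f' i := by
    intro i
    have h1 : f' i ∈ Submodule.span K (Set.range (Subtype.val : b → F)) := by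
      rw [Subtype.range_coe, hbspan]
      exact Submodule.subset_span ⟨i, rfl⟩
    rw [Submodule.mem_span_range_iff_exists_fun] at h1
    exact h1
  choose κ hκ using hmem
  obtain ⟨g, hg⟩ := IsLocalization.exist_integer_multiples_of_finite (nonZeroDivisors B)
    (fun p : I × b => κ p.1 p.2)
  choose h hh using hg
  have hg0 : (g : B) ≠ 0 := nonZeroDivisors.coe_ne_zero g
  have key : ∀ i, algebraMap B A g * f i = ∑ j : b, algebraMap B A (h (i, j)) * f (τ j) := by
    intro i
    apply hinj
    rw [map_mul, map_sum]
    have e1 : algebraMap A F (f i) = ∑ j, κ i j • (j : F) := (hκ i).symm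
    rw [e1, Finset.mul_sum]
    apply Finset.sum_congr rfl
    intro j _
    rw [map_mul, ← IsScalarTower.algebraMap_apply B A F, ← IsScalarTower.algebraMap_apply B A F]
    have e2 : algebraMap A F (f (τ j)) = (j : F) := hτ j
    rw [e2, IsScalarTower.algebraMap_apply B K F (h (i, j)), hh (i, j), Algebra.smul_def,
      Algebra.smul_def, map_mul, ← IsScalarTower.algebraMap_apply B K F]
    ring
  refine ⟨g, hg0, fun y hy J _ hJ M => ?_⟩
  let Ψ : (J → ℂ) →ₗ[ℂ] (b → ℂ) :=
    { toFun := fun c j => ∑ k, c k * ∑ i, M k i * y (h (i, j))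
      map_add' := by intro c d; ext s; simp [add_mul, Finset.sum_add_distrib]
      map_smul' := by intro a c; ext s; simp [Finset.mul_sum, mul_assoc] }
  have hker : LinearMap.ker Ψ ≠ ⊥ := by
    apply LinearMap.ker_ne_bot_of_finrank_lt
    rw [Module.finrank_fintype_fun_eq_card, Module.finrank_fintype_fun_eq_card]
    omega
  obtain ⟨c, hc, hc0⟩ := (Submodule.ne_bot_iff _).1 hker
  refine ⟨c, hc0, fun x hx => ?_⟩
  have hx' : ∀ z : B, x (algebraMap B A z) = y z := fun z => by rw [← hx]; rfl
  have e3 : ∀ i, y g * x (f i) = ∑ j : b, y (h (i, j)) * x (f (τ j)) := by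
    intro i
    have := congrArg x (key i)
    simpa [hx'] using this
  have e4 : y g * ∑ j, c j * ∑ i, M j i * x (f i) = 0 := by
    calc y g * ∑ j, c j * ∑ i, M j i * x (f i)
        = ∑ j, c j * ∑ i, M j i * (y g * x (f i)) := by
          simp only [Finset.mul_sum]
          refine Finset.sum_congr rfl fun j _ => Finset.sum_congr rfl fun i _ => by ring
      _ = ∑ l : b, (∑ k, c k * ∑ i, M k i * y (h (i, l))) * x (f (τ l)) := by
          simp only [e3, Finset.mul_sum, Finset.sum_mul]
          symm
          rw [Finset.sum_comm]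
          refine Finset.sum_congr rfl fun k _ => ?_
          rw [Finset.sum_comm]
          refine Finset.sum_congr rfl fun i _ => Finset.sum_congr rfl fun l _ => by ring
      _ = 0 := by
          apply Finset.sum_eq_zero
          intro l _
          have := congrFun hc l
          simp only [Ψ, LinearMap.coe_mk, AddHom.coe_mk, Pi.zero_apply] at this
          rw [this, zero_mul]
  rcases mul_eq_zero.1 e4 with h0 | h0
  · exact absurd h0 hy
  · exact h0

end Vale.Agent.P299.H819
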