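import Vale.Agent.P299.H819.Final
import Vale.Agent.P299.H348.Unif

/-!
The comparison theorem (5.1), unconditional.
-/

namespace Vale.Agent.P299.H819

open Polynomial

section

variable {B A : Type*} [CommRing B] [IsDomain B] [CommRing A] [IsDomain A] [Algebra ℂ B]
  [Algebra ℂ A] [Algebra B A] [IsScalarTower ℂ B A]

theorem unifNoether_cone (hinj : Function.Injective (algebraMap B A)) {n : ℕ} (v : Fin n → A) :
    UnifNoether B v := by
  classical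
  have hchar : CharZero B := charZero_of_injective_algebraMap (algebraMap ℂ B).injective
  have hinj' : Function.Injective (algebraMap B A[X]) := by
    have : (algebraMap B A[X] : B → A[X]) = (C : A → A[X]) ∘ (algebraMap B A) := by
      ext b
      rfl
    rw [this]
    exact C_injective.comp hinj
  obtain ⟨d, L, g, K, hg, hK, hL, hgood⟩ := Vale.Agent.P299.H348.unifNoether hinj' (cone v) (by
    intro x z
    obtain ⟨x', h1, _, h2, _⟩ := cone_scal (B := B) v v (fun (_ : Unit) => (fun _ _ => 0 :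
      Fin 0 → Fin n → ℂ)) x z
    exact ⟨x', h1, h2⟩)
  have hlc : ∀ l : Fin d → Fin n → ℤ, Vale.Agent.P299.H348.lc l (cone v) =
      comb v (fun i j => ((l i j : ℤ) : ℂ)) := by
    intro l
    ext1 i
    unfold Vale.Agent.P299.H348.lc comb
    refine Finset.sum_congr rfl fun j _ => ?_
    rw [map_intCast, map_intCast]
  refine ⟨d, L, inferInstance, fun l i j => (((l : Fin d → Fin n → ℤ) i j : ℤ) : ℂ), g, K, hg,
    ?_, ?_, ?_⟩
  · intro l
    have h1 := (hL l l.2).1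
    rw [hlc] at h1
    exact h1
  · intro l j
    obtain ⟨P, c, hc, hlc', hP⟩ := (hL l l.2).2 j
    rw [hlc] at hP
    exact ⟨P, c, hc, hlc', hP⟩
  · intro y hy
    obtain ⟨l, hl, h⟩ := hgood (y : B →+* ℂ) hy
    refine ⟨⟨l, hl⟩, fun x hx => ?_⟩
    have h1 := h x hx
    rw [hlc] at h1
    exact h1

/-- **(5.1)** Let `B → A` be an injective homomorphism of finitely generated domains over `ℂ`,
`v` and `w` finite tuples in `A`, `v 0 = 1`, `w ≠ 0`, `A` algebraic over `B[v]`, such that for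
infinitely many `m` the function `|σ|² |w|^{2m} / |v|^{2(m+r)}` is bounded on the general fibre.
Then the `e`-th power of the supremum of `|w|² / |v|²` on the fibre over `y` is comparable with
a quotient of sums of squares of absolute values of elements of `B`, for all `y` outside a
hypersurface. -/
theorem sup_comparison [Algebra.FiniteType ℂ B] [Algebra.FiniteType ℂ A]
    (hinj : Function.Injective (algebraMap B A))
    {a b : ℕ} (v : Fin (a + 1) → A) (hv : v 0 = 1) (w : Fin b → A) (hw : ∃ j, w j ≠ 0)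
    (hgen : ∀ x : A, IsAlgebraic (Algebra.adjoin B (Set.range v)) x)
    (σ : A) (hσ : σ ≠ 0) (r : ℕ)
    (h4 : ∃ g : B, g ≠ 0 ∧ ∀ y : B →ₐ[ℂ] ℂ, y g ≠ 0 → ∃ K : ℝ, ∀ x : A →ₐ[ℂ] ℂ, Over y x →
      ‖x σ‖ ^ 2 ≤ K * nsq v x ^ r)
    (h5 : ∀ m₀ : ℕ, ∃ m ≥ m₀, ∃ g : B, g ≠ 0 ∧ ∀ y : B →ₐ[ℂ] ℂ, y g ≠ 0 → ∃ K : ℝ,
      ∀ x : A →ₐ[ℂ] ℂ, Over y x → ‖x σ‖ ^ 2 * nsq w x ^ m ≤ K * nsq v x ^ (m + r)) :
    ∃ (g : B) (e n₁ n₂ : ℕ) (h₁ : Fin n₁ → B) (h₂ : Fin n₂ → B) (D : ℝ), g ≠ 0 ∧ 0 < e ∧ 0 < D ∧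
      ∀ y : B →ₐ[ℂ] ℂ, y g ≠ 0 → (∃ x : A →ₐ[ℂ] ℂ, Over y x) ∧
        0 < ∑ k, ‖y (h₁ k)‖ ^ 2 ∧ 0 < ∑ k, ‖y (h₂ k)‖ ^ 2 ∧
        ∃ ρ : ℝ, 0 < ρ ∧ IsLUB {s : ℝ | ∃ x : A →ₐ[ℂ] ℂ, Over y x ∧ s = nsq w x / nsq v x} ρ ∧
          ρ ^ e * ∑ k, ‖y (h₁ k)‖ ^ 2 ≤ D * ∑ k, ‖y (h₂ k)‖ ^ 2 ∧
          ∑ k, ‖y (h₂ k)‖ ^ 2 ≤ D * (ρ ^ e * ∑ k, ‖y (h₁ k)‖ ^ 2) :=
  sup_comparison_of v hv w hw hgen σ hσ r h4 h5 (unifNoether_cone hinj v)

end

section Sub

variable {F : Type*} [Field F] [Algebra ℂ F]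

/-- `sup_comparison` for subalgebras of a field `F`. -/
theorem sup_comparison_sub (A B : Subalgebra ℂ F) (hBA : B ≤ A) (hA : A.FG) (hB : B.FG)
    {a b : ℕ} (v : Fin (a + 1) → A) (hv : v 0 = 1) (w : Fin b → A) (hw : ∃ j, w j ≠ 0)
    (hgen : ∀ x : A, IsAlgebraic
      (Algebra.adjoin ℂ ((B : Set F) ∪ Set.range fun i => (v i : F))) (x : F))
    (σ : A) (hσ : σ ≠ 0) (r : ℕ)
    (h4 : ∃ g : B, g ≠ 0 ∧ ∀ y : B →ₐ[ℂ] ℂ, y g ≠ 0 → ∃ K : ℝ, ∀ x : A →ₐ[ℂ] ℂ,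
      (∀ b : B, x (Subalgebra.inclusion hBA b) = y b) → ‖x σ‖ ^ 2 ≤ K * nsq v x ^ r)
    (h5 : ∀ m₀ : ℕ, ∃ m ≥ m₀, ∃ g : B, g ≠ 0 ∧ ∀ y : B →ₐ[ℂ] ℂ, y g ≠ 0 → ∃ K : ℝ,
      ∀ x : A →ₐ[ℂ] ℂ, (∀ b : B, x (Subalgebra.inclusion hBA b) = y b) →
        ‖x σ‖ ^ 2 * nsq w x ^ m ≤ K * nsq v x ^ (m + r)) :
    ∃ (g : B) (e n₁ n₂ : ℕ) (h₁ : Fin n₁ → B) (h₂ : Fin n₂ → B) (D : ℝ), g ≠ 0 ∧ 0 < e ∧ 0 < D ∧
      ∀ y : B →ₐ[ℂ] ℂ, y g ≠ 0 →
        (∃ x : A →ₐ[ℂ] ℂ, ∀ b : B, x (Subalgebra.inclusion hBA b) = y b) ∧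
        0 < ∑ k, ‖y (h₁ k)‖ ^ 2 ∧ 0 < ∑ k, ‖y (h₂ k)‖ ^ 2 ∧
        ∃ ρ : ℝ, 0 < ρ ∧ IsLUB {s : ℝ | ∃ x : A →ₐ[ℂ] ℂ,
            (∀ b : B, x (Subalgebra.inclusion hBA b) = y b) ∧ s = nsq w x / nsq v x} ρ ∧
          ρ ^ e * ∑ k, ‖y (h₁ k)‖ ^ 2 ≤ D * ∑ k, ‖y (h₂ k)‖ ^ 2 ∧
          ∑ k, ‖y (h₂ k)‖ ^ 2 ≤ D * (ρ ^ e * ∑ k, ‖y (h₁ k)‖ ^ 2) := by
  classical
  let algBA : Algebra B A := (Subalgebra.inclusion hBA).toRingHom.toAlgebra
  have tow : IsScalarTower ℂ B A := IsScalarTower.of_algebraMap_eq fun c => rfl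
  have hmap : ∀ b : B, algebraMap B A b = Subalgebra.inclusion hBA b := fun b => rfl
  have fA : Algebra.FiniteType ℂ A := A.fg_iff_finiteType.1 hA
  have fB : Algebra.FiniteType ℂ B := B.fg_iff_finiteType.1 hB
  have hgen' : ∀ x : A, IsAlgebraic (Algebra.adjoin B (Set.range v)) x := by
    intro x
    obtain ⟨P, hP, hPx⟩ := hgen x
    -- the subalgebra `ℂ[B, v]` of `F` is contained in the image of `B[v]`
    have hsub : ∀ q ∈ Algebra.adjoin ℂ ((B : Set F) ∪ Set.range fun i => (v i : F)),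
        ∃ q' : Algebra.adjoin B (Set.range v), ((q' : A) : F) = q := by
      intro q hq
      induction hq using Algebra.adjoin_induction with
      | mem q hq =>
        rcases hq with hq | ⟨i, rfl⟩
        · exact ⟨algebraMap B _ ⟨q, hq⟩, rfl⟩
        · exact ⟨⟨v i, Algebra.subset_adjoin ⟨i, rfl⟩⟩, rfl⟩
      | algebraMap c =>
        exact ⟨algebraMap B _ (algebraMap ℂ B c), rfl⟩
      | add p q _ _ hp hq =>
        obtain ⟨p', rfl⟩ := hp
        obtain ⟨q', rfl⟩ := hq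
        exact ⟨p' + q', rfl⟩
      | mul p q _ _ hp hq =>
        obtain ⟨p', rfl⟩ := hp
        obtain ⟨q', rfl⟩ := hq
        exact ⟨p' * q', rfl⟩
    choose f hf using fun q : Algebra.adjoin ℂ ((B : Set F) ∪ Set.range fun i => (v i : F)) =>
      hsub q q.2
    have hinjF : Function.Injective fun q' : Algebra.adjoin B (Set.range v) => ((q' : A) : F) :=
      Subtype.val_injective.comp Subtype.val_injective
    let φ : Algebra.adjoin ℂ ((B : Set F) ∪ Set.range fun i => (v i : F)) →+*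
        Algebra.adjoin B (Set.range v) :=
      { toFun := f
        map_one' := hinjF (by simp [hf])
        map_zero' := hinjF (by simp [hf])
        map_mul' := fun p q => hinjF (by simp [hf])
        map_add' := fun p q => hinjF (by simp [hf]) }
    have hφ : Function.Injective φ := by
      intro p q hpq
      have h1 := congrArg (fun q' : Algebra.adjoin B (Set.range v) => ((q' : A) : F)) hpq
      simp only [φ, RingHom.coe_mk, MonoidHom.coe_mk, OneHom.coe_mk, hf] at h1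
      exact Subtype.ext h1
    refine ⟨P.map φ, (Polynomial.map_ne_zero_iff hφ).2 hP, ?_⟩
    apply Subtype.val_injective
    rw [aeval_def, eval₂_map]
    have h2 : ((A.val : A →ₐ[ℂ] F) : A →+* F).comp
        ((algebraMap (Algebra.adjoin B (Set.range v)) A).comp φ) =
        algebraMap (Algebra.adjoin ℂ ((B : Set F) ∪ Set.range fun i => (v i : F))) F := by
      ext q
      exact hf q
    have h3 := hom_eval₂ P ((algebraMap (Algebra.adjoin B (Set.range v)) A).comp φ)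
      ((A.val : A →ₐ[ℂ] F) : A →+* F) x
    rw [h2] at h3
    exact h3.trans hPx
  exact sup_comparison (B := B) (A := A) (Subalgebra.inclusion_injective hBA) v hv w hw hgen'
    σ hσ r h4 h5

end Sub

end Vale.Agent.P299.H819
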