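import Mathlib

/-!
Elementary estimates between roots and coefficients of complex polynomials in one variable.
-/

namespace Vale.Agent.P299.H819

open Polynomial

theorem coeff_le_of_roots {p : ℂ[X]} {S : ℝ} (hp : p ≠ 0) (hS : ∀ z, p.IsRoot z → ‖z‖ ≤ S)
    (i : ℕ) :
    ‖p.coeff i‖ ≤ ‖p.leadingCoeff‖ * (S ^ (p.natDegree - i) * p.natDegree.choose i) := by
  have hlc : p.leadingCoeff ≠ 0 := leadingCoeff_ne_zero.2 hp
  set q : ℂ[X] := C (p.leadingCoeff)⁻¹ * p with hq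
  have hmonic : q.Monic := by
    rw [hq, mul_comm]
    exact monic_mul_leadingCoeff_inv hp
  have hdeg : q.natDegree = p.natDegree := by
    rw [hq]
    exact natDegree_C_mul (inv_ne_zero hlc)
  have h1 := coeff_le_of_roots_le (f := RingHom.id ℂ) (B := S) i hmonic
    (IsAlgClosed.splits _) (by
      intro z hz
      rw [Polynomial.map_id] at hz
      apply hS
      have h2 : q.eval z = 0 := (mem_roots hmonic.ne_zero).1 hz
      rw [hq, eval_mul, eval_C] at h2
      exact (mul_eq_zero.1 h2).resolve_left (inv_ne_zero hlc))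
  rw [Polynomial.map_id, hdeg] at h1
  have h2 : p.coeff i = p.leadingCoeff * q.coeff i := by
    rw [hq, coeff_C_mul, ← mul_assoc, mul_inv_cancel₀ hlc, one_mul]
  rw [h2, norm_mul]
  exact mul_le_mul_of_nonneg_left h1 (norm_nonneg _)

theorem coeff_zero_le {p : ℂ[X]} {S : ℝ} (hp : p ≠ 0) {z₀ : ℂ} (hz₀ : p.IsRoot z₀)
    (hS : ∀ z, p.IsRoot z → ‖z‖ ≤ S) :
    ‖p.coeff 0‖ ≤ ‖p.leadingCoeff‖ * ‖z₀‖ * S ^ (p.natDegree - 1) := by
  obtain ⟨r, hr⟩ := dvd_iff_isRoot.2 hz₀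
  have hr0 : r ≠ 0 := by
    rintro rfl
    rw [mul_zero] at hr
    exact hp hr
  have hdeg : p.natDegree = r.natDegree + 1 := by
    rw [hr, natDegree_mul (X_sub_C_ne_zero _) hr0, natDegree_X_sub_C, add_comm]
  have hlc : p.leadingCoeff = r.leadingCoeff := by
    rw [hr, leadingCoeff_mul, leadingCoeff_X_sub_C, one_mul]
  have hc : p.coeff 0 = -z₀ * r.coeff 0 := by
    rw [hr, mul_coeff_zero]
    simp
  have h1 := coeff_le_of_roots (p := r) (S := S) hr0 (by
    intro z hz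
    apply hS
    rw [IsRoot, hr, eval_mul, hz.eq_zero, mul_zero]) 0
  simp only [tsub_zero, Nat.choose_zero_right, Nat.cast_one, mul_one] at h1
  rw [hc, hlc, norm_mul, norm_neg, hdeg, Nat.add_sub_cancel]
  calc ‖z₀‖ * ‖r.coeff 0‖ ≤ ‖z₀‖ * (‖r.leadingCoeff‖ * S ^ r.natDegree) :=
        mul_le_mul_of_nonneg_left h1 (norm_nonneg _)
    _ = _ := by ring

theorem root_le {p : ℂ[X]} {M : ℝ} (hM : 0 ≤ M) (hp : p ≠ 0)
    (hc : ∀ i < p.natDegree, ‖p.coeff i‖ ≤ ‖p.leadingCoeff‖ * M ^ (p.natDegree - i)) {z : ℂ}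
    (hz : p.IsRoot z) : ‖z‖ ≤ 2 * M := by
  by_contra hcon
  push Not at hcon
  set n := p.natDegree with hn
  have hz0 : 0 < ‖z‖ := lt_of_le_of_lt (by positivity) hcon
  have hlc : 0 < ‖p.leadingCoeff‖ := norm_pos_iff.2 (leadingCoeff_ne_zero.2 hp)
  -- the root equation
  have h1 : p.leadingCoeff * z ^ n = - ∑ i ∈ Finset.range n, p.coeff i * z ^ i := by
    have h0 := hz.eq_zero
    rw [eval_eq_sum_range, Finset.sum_range_succ] at h0
    rw [← hn] at h0
    have : p.coeff n = p.leadingCoeff := rfl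
    rw [this] at h0
    linear_combination h0
  have h2 : ‖p.leadingCoeff‖ * ‖z‖ ^ n ≤
      ∑ i ∈ Finset.range n, ‖p.leadingCoeff‖ * M ^ (n - i) * ‖z‖ ^ i := by
    rw [← norm_pow, ← norm_mul, h1, norm_neg]
    refine (norm_sum_le _ _).trans (Finset.sum_le_sum fun i hi => ?_)
    rw [norm_mul, norm_pow]
    exact mul_le_mul_of_nonneg_right (hc i (Finset.mem_range.1 hi)) (by positivity)
  have h3 : ∀ m : ℕ, ∑ i ∈ Finset.range m, M ^ (m - i) * ‖z‖ ^ i < ‖z‖ ^ m := by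
    intro m
    induction m with
    | zero => simp
    | succ m ih =>
      rw [Finset.sum_range_succ]
      have e1 : ∑ i ∈ Finset.range m, M ^ (m + 1 - i) * ‖z‖ ^ i =
          M * ∑ i ∈ Finset.range m, M ^ (m - i) * ‖z‖ ^ i := by
        rw [Finset.mul_sum]
        refine Finset.sum_congr rfl fun i hi => ?_
        rw [Finset.mem_range] at hi
        rw [show m + 1 - i = (m - i) + 1 by omega, pow_succ]
        ring
      rw [e1, show m + 1 - m = 1 by omega, pow_one]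
      have e2 : M * ∑ i ∈ Finset.range m, M ^ (m - i) * ‖z‖ ^ i ≤ M * ‖z‖ ^ m :=
        mul_le_mul_of_nonneg_left ih.le hM
      have e3 : ‖z‖ ^ (m + 1) = ‖z‖ * ‖z‖ ^ m := by ring
      rw [e3]
      have e4 : 0 < ‖z‖ ^ m := by positivity
      nlinarith
  have h4 : ∑ i ∈ Finset.range n, ‖p.leadingCoeff‖ * M ^ (n - i) * ‖z‖ ^ i =
      ‖p.leadingCoeff‖ * ∑ i ∈ Finset.range n, M ^ (n - i) * ‖z‖ ^ i := by
    rw [Finset.mul_sum]
    exact Finset.sum_congr rfl fun i _ => by ring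
  rw [h4] at h2
  have h5 := le_of_mul_le_mul_left h2 hlc
  exact absurd (h3 n) (not_lt.2 h5)

end Vale.Agent.P299.H819
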