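import Vale.Agent.P299.H819.Spec
import Vale.Agent.P299.H819.Roots

/-!
One projection `T = (T_1,…,T_d)`: the equation of `θ` over `B[T]` has coefficients of bounded
degree, when `θ` satisfies the growth conditions.
-/

namespace Vale.Agent.P299.H819

open MvPolynomial

/-- lifting of points through an injective finitely generated algebraic extension of domains -/
def Lift {R A : Type*} [CommRing R] [CommRing A] (ι : R →+* A) {s : ℕ} (θ : Fin s → A) : Prop :=
  ∃ q : R, q ≠ 0 ∧ (∀ φ : R →+* ℂ, φ q ≠ 0 → ∃ x : A →+* ℂ, x.comp ι = φ) ∧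
    ∀ l, ∃ P : Polynomial R, P.leadingCoeff = q ∧ 0 < P.natDegree ∧ P.eval₂ ι (θ l) = 0 ∧
      (θ l ≠ 0 → P.coeff 0 ≠ 0) ∧
      ∀ φ : R →+* ℂ, φ q ≠ 0 → ∀ ρ : ℂ, P.eval₂ φ ρ = 0 →
        ∃ x : A →+* ℂ, x.comp ι = φ ∧ x (θ l) = ρ

/-- sup norm of the values of a tuple of functions at a point -/
noncomputable def vn {A : Type*} [CommRing A] {n : ℕ} (v : Fin n → A) (x : A →+* ℂ) : ℝ :=
  ‖fun i => x (v i)‖

theorem vn_nonneg {A : Type*} [CommRing A] {n : ℕ} (v : Fin n → A) (x : A →+* ℂ) : 0 ≤ vn v x :=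
  norm_nonneg _

theorem le_vn {A : Type*} [CommRing A] {n : ℕ} (v : Fin n → A) (x : A →+* ℂ) (i : Fin n) :
    ‖x (v i)‖ ≤ vn v x :=
  norm_le_pi_norm (fun i => x (v i)) i

section

variable {B A : Type*} [CommRing B] [CommRing A] [Algebra B A] {d : ℕ}

/-- the ring homomorphism `B[T] → A` -/
noncomputable def iot (B : Type*) {A : Type*} [CommRing B] [CommRing A] [Algebra B A] {d : ℕ}
    (T : Fin d → A) : MvPolynomial (Fin d) B →+* A :=
  (aeval T : MvPolynomial (Fin d) B →ₐ[B] A).toRingHom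

theorem comp_iot_iff {T : Fin d → A} {x : A →+* ℂ} {y : B →+* ℂ} {t : Fin d → ℂ} :
    x.comp (iot B T) = eval₂Hom y t ↔ x.comp (algebraMap B A) = y ∧ ∀ i, x (T i) = t i := by
  constructor
  · intro h
    constructor
    · ext b
      have := congrArg (fun f => f (C b)) h
      simpa [iot] using this
    · intro i
      have := congrArg (fun f => f (X i)) h
      simpa [iot] using this
  · rintro ⟨h1, h2⟩
    apply MvPolynomial.ringHom_ext
    · intro b
      rw [← h1]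
      simp [iot]
    · intro i
      simp [iot, h2 i]

theorem apply_iot {T : Fin d → A} {x : A →+* ℂ} {y : B →+* ℂ}
    (hx : x.comp (algebraMap B A) = y) (p : MvPolynomial (Fin d) B) :
    x (iot B T p) = eval (fun i => x (T i)) (map y p) := by
  have h := (comp_iot_iff (T := T) (x := x) (y := y) (t := fun i => x (T i))).2
    ⟨hx, fun _ => rfl⟩
  have h2 := congrArg (fun f => f p) h
  simp only [RingHom.comp_apply] at h2
  rw [h2, coe_eval₂Hom, eval₂_eq_eval_map]

theorem hom_eq_eval (y : B →+* ℂ) (t : Fin d → ℂ) (p : MvPolynomial (Fin d) B) :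
    eval₂Hom y t p = eval t (map y p) := by
  rw [coe_eval₂Hom, eval₂_eq_eval_map]

theorem vn_eq_norm {T : Fin d → A} {x : A →+* ℂ} {t : Fin d → ℂ} (h : ∀ i, x (T i) = t i) :
    vn T x = ‖t‖ := by
  unfold vn
  congr 1
  ext i
  exact h i

/-- the equation of `θ` over `B[T]`: coefficients of bounded degree, all roots are values -/
def Ctrl (B : Type*) {A : Type*} [CommRing B] [CommRing A] [Algebra B A] {d : ℕ}
    (T : Fin d → A) (θ : A) (n : ℕ) : Prop :=
  0 < n ∧ ∃ (c : B) (E : ℕ → MvPolynomial (Fin d) B) (h : MvPolynomial (Fin d) B),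
    c ≠ 0 ∧ h ≠ 0 ∧ E n = C c ∧ (∀ i ≤ n, (E i).totalDegree ≤ n - i) ∧
    (∑ i ∈ Finset.range (n + 1), iot B T (E i) * θ ^ i = 0) ∧ (θ ≠ 0 → E 0 ≠ 0) ∧
    ∀ (y : B →+* ℂ) (t : Fin d → ℂ), eval t (map y h) ≠ 0 → ∀ ρ : ℂ,
      ∑ i ∈ Finset.range (n + 1), eval t (map y (E i)) * ρ ^ i = 0 →
      ∃ x : A →+* ℂ, x.comp (algebraMap B A) = y ∧ (∀ i, x (T i) = t i) ∧ x θ = ρ

theorem scaled_sum {R S : Type*} [CommRing R] [CommRing S] (P : Polynomial R) (E : ℕ → R)
    (a q : R) (n : ℕ) (hn : P.natDegree = n) (h : ∀ i ≤ n, a * P.coeff i = q * E i)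
    (φ : R →+* S) (z : S) :
    φ a * P.eval₂ φ z = φ q * ∑ i ∈ Finset.range (n + 1), φ (E i) * z ^ i := by
  rw [Polynomial.eval₂_eq_sum_range, Finset.mul_sum, Finset.mul_sum, hn]
  refine Finset.sum_congr rfl fun i hi => ?_
  rw [Finset.mem_range] at hi
  rw [← mul_assoc, ← mul_assoc, ← map_mul, ← map_mul, h i (by omega)]

theorem clear_denoms {B K : Type*} [CommRing B] [IsDomain B] [Field K] [Algebra B K]
    [IsFractionRing B K] {d : ℕ} {ι : Type*} [Fintype ι] (f : ι → MvPolynomial (Fin d) K) :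
    ∃ c : B, c ≠ 0 ∧ ∃ E : ι → MvPolynomial (Fin d) B,
      ∀ i, map (algebraMap B K) (E i) = C (algebraMap B K c) * f i ∧
        (E i).totalDegree ≤ (f i).totalDegree := by
  classical
  obtain ⟨c, hc⟩ := IsLocalization.exist_integer_multiples_of_finset (nonZeroDivisors B)
    (Finset.univ.biUnion fun i => (f i).support.image fun β => coeff β (f i))
  have hc' : ∀ i, ∀ β ∈ (f i).support, ∃ b : B,
      algebraMap B K b = algebraMap B K c * coeff β (f i) := by
    intro i β hβ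
    obtain ⟨b, hb⟩ := hc (coeff β (f i)) (by
      rw [Finset.mem_biUnion]
      exact ⟨i, Finset.mem_univ _, Finset.mem_image_of_mem _ hβ⟩)
    exact ⟨b, by rw [hb, Algebra.smul_def]⟩
  choose! b hb using hc'
  refine ⟨c, nonZeroDivisors.coe_ne_zero c,
    fun i => ∑ β ∈ (f i).support, monomial β (b i β), fun i => ⟨?_, ?_⟩⟩
  · rw [map_sum]
    conv_rhs => rw [(f i).as_sum, Finset.mul_sum]
    refine Finset.sum_congr rfl fun β hβ => ?_
    rw [map_monomial, hb i β hβ, C_mul_monomial]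
  · apply totalDegree_finsetSum_le
    intro β hβ
    exact (totalDegree_monomial_le β _).trans (le_totalDegree hβ)

end

section

variable {B K A : Type*} [CommRing B] [IsDomain B] [Field K] [Algebra B K] [IsFractionRing B K]
  [CommRing A] [IsDomain A] [Algebra B A] {d : ℕ}

theorem poly_of_growth (Y : (B →+* ℂ) → Prop)
    (hpt : ∀ g : B, g ≠ 0 → ∃ y : B →+* ℂ, Y y ∧ y g ≠ 0)
    (T : Fin d → A) (hinj : Function.Injective (iot B T)) (σ θ : A) (hσ : σ ≠ 0)
    (hlift : Lift (iot B T) ![σ, θ]) (r : ℕ)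
    (h4 : ∃ g : B, g ≠ 0 ∧ ∀ y : B →+* ℂ, Y y → y g ≠ 0 → ∃ C : ℝ, ∀ x : A →+* ℂ,
      x.comp (algebraMap B A) = y → ‖x σ‖ ≤ C * vn T x ^ r)
    (h5 : ∀ m₀ : ℕ, ∃ m ≥ m₀, ∃ g : B, g ≠ 0 ∧ ∀ y : B →+* ℂ, Y y → y g ≠ 0 → ∃ C : ℝ,
      ∀ x : A →+* ℂ, x.comp (algebraMap B A) = y → ‖x σ‖ * ‖x θ‖ ^ m ≤ C * vn T x ^ (m + r)) :
    ∃ n, Ctrl B T θ n := by
  classical
  let K := FractionRing B
  obtain ⟨q, hq, hex, hl⟩ := hlift
  obtain ⟨Pσ, hPσ1, hPσ2, hPσ3, hPσ4, hPσ5⟩ := hl 0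
  obtain ⟨P, hP1, hP2, hP3, hP4, hP5⟩ := hl 1
  simp only [Matrix.cons_val_zero, Matrix.cons_val_one] at hPσ3 hPσ4 hPσ5 hP3 hP4 hP5
  set n := P.natDegree with hn
  set k := Pσ.natDegree with hk
  have hc0 := hPσ4 hσ
  obtain ⟨gq, hgq, hgq'⟩ := spec_ne_zero q hq
  obtain ⟨g4, hg4, h4'⟩ := h4
  have hinjK : Function.Injective (map (σ := Fin d) (algebraMap B K)) :=
    map_injective _ (IsFractionRing.injective B K)
  have hmap0 : ∀ p : MvPolynomial (Fin d) B, p ≠ 0 → map (algebraMap B K) p ≠ 0 := by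
    intro p hp h
    exact hp (hinjK (by rw [h, map_zero]))
  -- the coefficients are polynomials over `K`
  have claim : ∀ i < n, ∃ f : MvPolynomial (Fin d) K, f.totalDegree ≤ n - i ∧
      map (algebraMap B K) (P.coeff i) = map (algebraMap B K) q * f := by
    intro i hi
    apply exists_of_pow (map (algebraMap B K) (P.coeff i)) (map (algebraMap B K) q)
      (map (algebraMap B K) (Pσ.coeff 0) ^ (n - i)) (map (algebraMap B K) q ^ (n - i))
      (hmap0 _ hq) (pow_ne_zero _ (hmap0 _ hc0)) (pow_ne_zero _ (hmap0 _ hq)) (n - i)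
      (r * k * (n - i))
    intro m₀
    obtain ⟨m, hm, g5, hg5, h5'⟩ := h5 (max m₀ 1)
    refine ⟨m, (le_max_left _ _).trans hm, ?_⟩
    by_contra hcon
    obtain ⟨g', hg', hno⟩ := spec_not_dvd (K := K) (P.coeff i ^ m * Pσ.coeff 0 ^ (n - i))
      (q ^ m * q ^ (n - i)) (mul_ne_zero (pow_ne_zero _ hq) (pow_ne_zero _ hq))
      (m * (n - i) + r * k * (n - i)) (by
        rintro ⟨f, hf1, hf2⟩
        apply hcon
        refine ⟨f, hf1, ?_⟩
        simp only [map_mul, map_pow] at hf2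
        rw [hf2]
        ring)
    obtain ⟨y, hyY, hy⟩ := hpt (g' * (g4 * (g5 * gq)))
      (mul_ne_zero hg' (mul_ne_zero hg4 (mul_ne_zero hg5 hgq)))
    rw [map_mul, map_mul, map_mul, mul_ne_zero_iff, mul_ne_zero_iff, mul_ne_zero_iff] at hy
    obtain ⟨hy1, hy2, hy3, hy4⟩ := hy
    apply hno y hy1
    obtain ⟨C4, hC4⟩ := h4' y hyY hy2
    obtain ⟨C5, hC5⟩ := h5' y hyY hy3
    have hqy := hgq' y hy4
    have hden : map y (q ^ m * q ^ (n - i)) ≠ 0 := by
      rw [map_mul, map_pow, map_pow]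
      exact mul_ne_zero (pow_ne_zero _ hqy) (pow_ne_zero _ hqy)
    apply exists_of_bound _ _ (map y q) hden hqy
      ((n.choose i : ℝ) ^ m * (|C4| ^ (k - 1) * |C5|) ^ (n - i))
    intro t ht
    set Q := ‖eval t (map y q)‖ with hQ
    have hQ0 : 0 < Q := norm_pos_iff.2 ht
    let φ : MvPolynomial (Fin d) B →+* ℂ := eval₂Hom y t
    have hφ : ∀ p, φ p = eval t (map y p) := hom_eq_eval y t
    have hφq : φ q ≠ 0 := by rw [hφ]; exact ht
    -- polynomials at the point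
    have hlc : (P.map φ).leadingCoeff = φ q := by
      rw [Polynomial.leadingCoeff_map_of_leadingCoeff_ne_zero _ (by rw [hP1]; exact hφq), hP1]
    have hlcσ : (Pσ.map φ).leadingCoeff = φ q := by
      rw [Polynomial.leadingCoeff_map_of_leadingCoeff_ne_zero _ (by rw [hPσ1]; exact hφq), hPσ1]
    have hdeg : (P.map φ).natDegree = n :=
      Polynomial.natDegree_map_of_leadingCoeff_ne_zero _ (by rw [hP1]; exact hφq)
    have hdegσ : (Pσ.map φ).natDegree = k :=
      Polynomial.natDegree_map_of_leadingCoeff_ne_zero _ (by rw [hPσ1]; exact hφq)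
    have hne : P.map φ ≠ 0 := by
      intro h; rw [h, Polynomial.leadingCoeff_zero] at hlc; exact hφq hlc.symm
    have hneσ : Pσ.map φ ≠ 0 := by
      intro h; rw [h, Polynomial.leadingCoeff_zero] at hlcσ; exact hφq hlcσ.symm
    have hnormt : ∀ x : A →+* ℂ, x.comp (iot B T) = φ → vn T x = ‖t‖ := fun x hx =>
      vn_eq_norm (comp_iot_iff.1 hx).2
    have hSσ : ∀ z, (Pσ.map φ).IsRoot z → ‖z‖ ≤ |C4| * ‖t‖ ^ r := by
      intro z hz
      obtain ⟨x, hx1, hx2⟩ := hPσ5 φ hφq z (by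
        rw [Polynomial.IsRoot, Polynomial.eval_map] at hz; exact hz)
      have h1 := hC4 x (comp_iot_iff.1 hx1).1
      rw [hx2, hnormt x hx1] at h1
      exact h1.trans (mul_le_mul_of_nonneg_right (le_abs_self _) (by positivity))
    have hroot : ∀ z, (P.map φ).IsRoot z → ‖z‖ ^ m * ‖φ (Pσ.coeff 0)‖ ≤
        Q * ((|C4| ^ (k - 1) * |C5|) * (1 + ‖t‖) ^ (m + r * k)) := by
      intro z hz
      obtain ⟨x, hx1, hx2⟩ := hP5 φ hφq z (by
        rw [Polynomial.IsRoot, Polynomial.eval_map] at hz; exact hz)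
      have h1 := hC5 x (comp_iot_iff.1 hx1).1
      rw [hx2, hnormt x hx1] at h1
      have hxσ : (Pσ.map φ).IsRoot (x σ) := by
        rw [Polynomial.IsRoot, Polynomial.eval_map, ← hx1]
        have := congrArg x hPσ3
        rw [map_zero, Polynomial.hom_eval₂] at this
        exact this
      have h2 := coeff_zero_le hneσ hxσ hSσ
      rw [Polynomial.coeff_map, hlcσ, hdegσ] at h2
      have hQφ : ‖φ q‖ = Q := by rw [hφ]
      rw [hQφ] at h2
      have ht0 : 0 ≤ ‖t‖ := norm_nonneg t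
      calc ‖z‖ ^ m * ‖φ (Pσ.coeff 0)‖
          ≤ ‖z‖ ^ m * (Q * ‖x σ‖ * (|C4| * ‖t‖ ^ r) ^ (k - 1)) :=
            mul_le_mul_of_nonneg_left h2 (by positivity)
        _ = Q * (|C4| * ‖t‖ ^ r) ^ (k - 1) * (‖x σ‖ * ‖z‖ ^ m) := by ring
        _ ≤ Q * (|C4| * ‖t‖ ^ r) ^ (k - 1) * (C5 * ‖t‖ ^ (m + r)) :=
            mul_le_mul_of_nonneg_left h1 (by positivity)
        _ ≤ Q * (|C4| * ‖t‖ ^ r) ^ (k - 1) * (|C5| * ‖t‖ ^ (m + r)) := by
            gcongr
            exact le_abs_self _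
        _ = Q * ((|C4| ^ (k - 1) * |C5|) * ‖t‖ ^ (m + r * k)) := by
            rw [mul_pow, ← pow_mul]
            have : m + r * k = r * (k - 1) + (m + r) := by
              obtain ⟨k', hk'⟩ : ∃ k', k = k' + 1 := ⟨k - 1, by omega⟩
              rw [hk', Nat.add_sub_cancel]
              ring
            rw [this, pow_add _ (r * (k - 1))]
            ring
        _ ≤ Q * ((|C4| ^ (k - 1) * |C5|) * (1 + ‖t‖) ^ (m + r * k)) := by
            gcongr
            linarith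
    -- the largest root
    obtain ⟨z₀, hz₀, hmax⟩ : ∃ z₀, (P.map φ).IsRoot z₀ ∧ ∀ z, (P.map φ).IsRoot z → ‖z‖ ≤ ‖z₀‖ := by
      obtain ⟨z1, hz1⟩ := IsAlgClosed.exists_root (P.map φ) (by
        rw [Polynomial.degree_eq_natDegree hne, hdeg]
        exact_mod_cast hP2.ne')
      have hne' : ((P.map φ).roots.toFinset).Nonempty :=
        ⟨z1, by rw [Multiset.mem_toFinset]; exact (Polynomial.mem_roots hne).2 hz1⟩
      obtain ⟨z₀, hz₀, hmax⟩ := Finset.exists_max_image _ (fun z : ℂ => ‖z‖) hne'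
      refine ⟨z₀, ?_, fun z hz => hmax z ?_⟩
      · rw [Multiset.mem_toFinset] at hz₀
        exact (Polynomial.mem_roots hne).1 hz₀
      · rw [Multiset.mem_toFinset]
        exact (Polynomial.mem_roots hne).2 hz
    have h6 := coeff_le_of_roots hne hmax i
    rw [Polynomial.coeff_map, hlc, hdeg] at h6
    have hQφ : ‖φ q‖ = Q := by rw [hφ]
    rw [hQφ] at h6
    have h7 := hroot z₀ hz₀
    rw [map_mul, map_pow, map_pow, map_mul, map_pow, map_pow, ← hφ, ← hφ, norm_mul, norm_pow,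
      norm_pow, map_mul, map_pow, map_pow, map_mul, map_pow, map_pow, norm_mul, norm_pow,
      norm_pow, ← hQ]
    calc ‖φ (P.coeff i)‖ ^ m * ‖φ (Pσ.coeff 0)‖ ^ (n - i)
        ≤ (Q * (‖z₀‖ ^ (n - i) * (n.choose i : ℝ))) ^ m * ‖φ (Pσ.coeff 0)‖ ^ (n - i) := by
          gcongr
      _ = Q ^ m * (n.choose i : ℝ) ^ m * (‖z₀‖ ^ m * ‖φ (Pσ.coeff 0)‖) ^ (n - i) := by
          rw [mul_pow, mul_pow, mul_pow, ← pow_mul, ← pow_mul]
          ring
      _ ≤ Q ^ m * (n.choose i : ℝ) ^ m *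
          (Q * ((|C4| ^ (k - 1) * |C5|) * (1 + ‖t‖) ^ (m + r * k))) ^ (n - i) := by
          gcongr
      _ = (n.choose i : ℝ) ^ m * (|C4| ^ (k - 1) * |C5|) ^ (n - i) *
          (1 + ‖t‖) ^ (m * (n - i) + r * k * (n - i)) * (Q ^ m * Q ^ (n - i)) := by
          rw [mul_pow Q, mul_pow (|C4| ^ (k - 1) * |C5|), ← pow_mul]
          have : (m + r * k) * (n - i) = m * (n - i) + r * k * (n - i) := by ring
          rw [this]
          ring
  -- choose the polynomials and clear denominators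
  have claim' : ∀ i : Fin n, ∃ f : MvPolynomial (Fin d) K, f.totalDegree ≤ n - i ∧
      map (algebraMap B K) (P.coeff i) = map (algebraMap B K) q * f := fun i => claim i i.2
  choose f hf1 hf2 using claim'
  obtain ⟨c, hc, E', hE'⟩ := clear_denoms (B := B) f
  let E : ℕ → MvPolynomial (Fin d) B := fun i => if h : i < n then E' ⟨i, h⟩ else
    if i = n then C c else 0
  have hEn : E n = C c := by simp [E]
  have hEi : ∀ i (h : i < n), E i = E' ⟨i, h⟩ := fun i h => by simp [E, h]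
  have hPn : P.coeff n = q := hP1
  -- `c P_i = q E_i`
  have hcP : ∀ i ≤ n, C c * P.coeff i = q * E i := by
    intro i hi
    rcases hi.lt_or_eq with h | h
    · rw [hEi i h]
      apply hinjK
      rw [map_mul, map_mul, map_C, (hE' ⟨i, h⟩).1, hf2 ⟨i, h⟩]
      ring
    · rw [h, hEn, hPn]
      ring
  refine ⟨n, hP2, c, E, q * C c, hc, mul_ne_zero hq (by
    rw [Ne, C_eq_zero]; exact hc), hEn, ?_, ?_, ?_, ?_⟩
  · intro i hi
    rcases hi.lt_or_eq with h | h
    · rw [hEi i h]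
      exact ((hE' ⟨i, h⟩).2).trans (hf1 ⟨i, h⟩)
    · rw [h, hEn, totalDegree_C]
      omega
  · have h1 := scaled_sum P E (C c) q n hn.symm hcP (iot B T) θ
    rw [hP3, mul_zero] at h1
    have h2 : iot B T q ≠ 0 := by
      intro h
      exact hq (hinj (by rw [h, map_zero]))
    exact (mul_eq_zero.1 h1.symm).resolve_left h2
  · intro hθ h0
    have h1 := hcP 0 (Nat.zero_le n)
    rw [h0, mul_zero] at h1
    rcases mul_eq_zero.1 h1 with h2 | h2
    · rw [C_eq_zero] at h2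
      exact hc h2
    · exact hP4 hθ h2
  · intro y t ht ρ hρ
    rw [map_mul, map_mul, mul_ne_zero_iff] at ht
    have hφ : ∀ p, eval₂Hom y t p = eval t (map y p) := hom_eq_eval y t
    have h1 := scaled_sum P E (C c) q n hn.symm hcP (eval₂Hom y t) ρ
    simp only [hφ] at h1
    rw [hρ, mul_zero] at h1
    have h2 := (mul_eq_zero.1 h1).resolve_left ht.2
    obtain ⟨x, hx1, hx2⟩ := hP5 (eval₂Hom y t) (by rw [hφ]; exact ht.1) ρ h2
    exact ⟨x, (comp_iot_iff.1 hx1).1, (comp_iot_iff.1 hx1).2, hx2⟩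

end

end Vale.Agent.P299.H819
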