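import Mathlib

/-!
Rational functions of several complex variables which are bounded by a power of the norm
are polynomials.
-/

namespace Vale.Agent.P299.H819

open MvPolynomial

/-- the complement of the zero set of a nonzero polynomial is dense -/
theorem dense_ne_zero {d : ℕ} {h : MvPolynomial (Fin d) ℂ} (hh : h ≠ 0) :
    Dense {t : Fin d → ℂ | eval t h ≠ 0} := by
  obtain ⟨t1, ht1⟩ : ∃ t, eval t h ≠ 0 := by
    by_contra hcon
    push Not at hcon
    exact hh (MvPolynomial.funext fun x => by rw [hcon x, map_zero])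
  rw [Metric.dense_iff]
  intro t0 r hr
  let P : Polynomial ℂ := aeval (fun i => Polynomial.C (t0 i) +
    Polynomial.X * Polynomial.C (t1 i - t0 i)) h
  have hP : ∀ s : ℂ, P.eval s = eval (fun i => t0 i + s * (t1 i - t0 i)) h := by
    intro s
    have h1 : (Polynomial.evalRingHom s).comp (aeval (fun i => Polynomial.C (t0 i) +
      Polynomial.X * Polynomial.C (t1 i - t0 i)) :
        MvPolynomial (Fin d) ℂ →ₐ[ℂ] Polynomial ℂ).toRingHom =
        (eval (fun i => t0 i + s * (t1 i - t0 i)) : MvPolynomial (Fin d) ℂ →+* ℂ) := by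
      apply MvPolynomial.ringHom_ext
      · intro r
        simp
      · intro i
        simp
    exact congrArg (fun f => f h) h1
  have hP0 : P ≠ 0 := by
    intro h0
    have := hP 1
    rw [h0] at this
    simp only [Polynomial.eval_zero, one_mul, add_sub_cancel] at this
    exact ht1 this.symm
  -- small s with P(s) ≠ 0
  have hfin : {s : ℂ | P.eval s = 0}.Finite := by
    apply (P.roots.toFinset.finite_toSet).subset
    intro s hs
    simp only [Finset.mem_coe, Multiset.mem_toFinset]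
    exact (Polynomial.mem_roots hP0).2 hs
  have hdense : Dense ({s : ℂ | P.eval s = 0}ᶜ) := hfin.countable.dense_compl ℂ
  set δ : ℝ := r / (2 * (‖t1 - t0‖ + 1)) with hδ
  have hδ0 : 0 < δ := by positivity
  obtain ⟨s, hs1, hs2⟩ := (Metric.dense_iff.1 hdense) 0 δ hδ0
  refine ⟨fun i => t0 i + s * (t1 i - t0 i), ?_, ?_⟩
  · rw [Metric.mem_ball, dist_eq_norm]
    have h2 : ((fun i => t0 i + s * (t1 i - t0 i)) - t0) = s • (t1 - t0) := by
      ext i; simp
    rw [h2, norm_smul]
    rw [Metric.mem_ball, dist_zero_right] at hs1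
    have h3 : ‖s‖ * ‖t1 - t0‖ ≤ δ * ‖t1 - t0‖ :=
      mul_le_mul_of_nonneg_right hs1.le (norm_nonneg _)
    have h4 : δ * ‖t1 - t0‖ < r := by
      rw [hδ, div_mul_eq_mul_div, div_lt_iff₀ (by positivity)]
      nlinarith [norm_nonneg (t1 - t0)]
    linarith
  · show eval _ h ≠ 0
    rw [← hP]
    exact hs2

/-- evaluation along a ray -/
theorem eval_smul_homogeneousComponent {d : ℕ} (f : MvPolynomial (Fin d) ℂ) (s : ℂ)
    (w : Fin d → ℂ) (k : ℕ) :
    eval (s • w) (homogeneousComponent k f) = s ^ k * eval w (homogeneousComponent k f) := by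
  have hk := homogeneousComponent_isHomogeneous k f
  rw [eval_eq', eval_eq', Finset.mul_sum]
  apply Finset.sum_congr rfl
  intro β hβ
  have h1 : ∑ i, β i = k := by
    have := hk (mem_support_iff.1 hβ)
    rw [Finsupp.weight_apply, Finsupp.sum_fintype] at this
    · simpa using this
    · simp
  have h2 : ∏ i, (s • w) i ^ β i = s ^ k * ∏ i, w i ^ β i := by
    simp only [Pi.smul_apply, smul_eq_mul, mul_pow]
    rw [Finset.prod_mul_distrib, Finset.prod_pow_eq_pow_sum, h1]
  rw [h2]
  ring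

theorem totalDegree_le_of_bound {d : ℕ} (f : MvPolynomial (Fin d) ℂ) (C : ℝ) (i : ℕ)
    (hf : ∀ t : Fin d → ℂ, ‖eval t f‖ ≤ C * (1 + ‖t‖) ^ i) : f.totalDegree ≤ i := by
  by_contra hcon
  push Not at hcon
  set m := f.totalDegree with hm
  have hf0 : f ≠ 0 := by
    rintro rfl
    simp at hm
    omega
  have htop : homogeneousComponent m f ≠ 0 := by
    obtain ⟨β, hβ, hβm⟩ := Finset.exists_mem_eq_sup f.support (support_nonempty.2 hf0)
      (fun s => s.sum fun _ e => e)
    have h1 : β.degree = m := by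
      rw [hm]
      exact hβm.symm
    intro h0
    have h2 := coeff_homogeneousComponent m f β
    rw [h0, if_pos h1, coeff_zero] at h2
    exact (mem_support_iff.1 hβ) h2.symm
  obtain ⟨w, hw⟩ : ∃ w, eval w (homogeneousComponent m f) ≠ 0 := by
    by_contra hc
    push Not at hc
    exact htop (MvPolynomial.funext fun x => by rw [hc x, map_zero])
  set a : ℝ := ‖eval w (homogeneousComponent m f)‖ with ha
  have ha0 : 0 < a := norm_pos_iff.2 hw
  have hC0 : 0 ≤ C := by
    have := hf 0
    simp only [norm_zero, add_zero, one_pow, mul_one] at this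
    exact (norm_nonneg _).trans this
  set S : ℝ := C * (1 + ‖w‖) ^ i + ∑ k ∈ Finset.range m, ‖eval w (homogeneousComponent k f)‖
    with hS
  have hS0 : 0 ≤ S := add_nonneg (mul_nonneg hC0 (pow_nonneg (by linarith [norm_nonneg w]) _))
    (Finset.sum_nonneg fun k _ => norm_nonneg _)
  have key : ∀ R : ℝ, 1 ≤ R → R * a ≤ S := by
    intro R hR
    have hR0 : 0 < R := by linarith
    have h1 : eval ((R : ℂ) • w) f = ∑ k ∈ Finset.range (m + 1),
        (R : ℂ) ^ k * eval w (homogeneousComponent k f) := by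
      have h0 := sum_homogeneousComponent f
      rw [← hm] at h0
      have h00 := congrArg (eval ((R : ℂ) • w)) h0
      rw [map_sum] at h00
      rw [← h00]
      exact Finset.sum_congr rfl fun k _ => eval_smul_homogeneousComponent f R w k
    rw [Finset.sum_range_succ] at h1
    have h2 : (R : ℂ) ^ m * eval w (homogeneousComponent m f) = eval ((R : ℂ) • w) f -
        ∑ k ∈ Finset.range m, (R : ℂ) ^ k * eval w (homogeneousComponent k f) := by
      rw [h1]; ring
    have h3 : R ^ m * a ≤ C * (1 + R * ‖w‖) ^ i +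
        ∑ k ∈ Finset.range m, R ^ k * ‖eval w (homogeneousComponent k f)‖ := by
      have e1 : ‖(R : ℂ) ^ m * eval w (homogeneousComponent m f)‖ = R ^ m * a := by
        rw [norm_mul, norm_pow, Complex.norm_real, Real.norm_of_nonneg hR0.le]
      rw [← e1, h2]
      refine (norm_sub_le _ _).trans (add_le_add ?_ ?_)
      · refine (hf _).trans ?_
        rw [norm_smul, Complex.norm_real, Real.norm_of_nonneg hR0.le]
      · refine (norm_sum_le _ _).trans (Finset.sum_le_sum fun k _ => ?_)
        rw [norm_mul, norm_pow, Complex.norm_real, Real.norm_of_nonneg hR0.le]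
    have h4 : (1 + R * ‖w‖) ^ i ≤ R ^ (m - 1) * (1 + ‖w‖) ^ i := by
      calc (1 + R * ‖w‖) ^ i ≤ (R * (1 + ‖w‖)) ^ i := by
            apply pow_le_pow_left₀ (by positivity)
            nlinarith [norm_nonneg w]
        _ = R ^ i * (1 + ‖w‖) ^ i := mul_pow _ _ _
        _ ≤ R ^ (m - 1) * (1 + ‖w‖) ^ i := by
            apply mul_le_mul_of_nonneg_right _ (by positivity)
            exact pow_le_pow_right₀ hR (by omega)
    have h5 : ∑ k ∈ Finset.range m, R ^ k * ‖eval w (homogeneousComponent k f)‖ ≤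
        R ^ (m - 1) * ∑ k ∈ Finset.range m, ‖eval w (homogeneousComponent k f)‖ := by
      rw [Finset.mul_sum]
      refine Finset.sum_le_sum fun k hk => ?_
      apply mul_le_mul_of_nonneg_right _ (norm_nonneg _)
      rw [Finset.mem_range] at hk
      exact pow_le_pow_right₀ hR (by omega)
    have h6 : R ^ m * a ≤ R ^ (m - 1) * S := by
      calc R ^ m * a ≤ _ := h3
        _ ≤ C * (R ^ (m - 1) * (1 + ‖w‖) ^ i) +
          R ^ (m - 1) * ∑ k ∈ Finset.range m, ‖eval w (homogeneousComponent k f)‖ :=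
            add_le_add (mul_le_mul_of_nonneg_left h4 hC0) h5
        _ = R ^ (m - 1) * S := by rw [hS]; ring
    have h7 : R ^ m = R ^ (m - 1) * R := by
      rw [← pow_succ]
      congr 1
      omega
    rw [h7, mul_assoc] at h6
    exact le_of_mul_le_mul_left h6 (by positivity)
  have h8 := key (S / a + 1) (by linarith [div_nonneg hS0 ha0.le])
  rw [add_mul, div_mul_cancel₀ _ ha0.ne'] at h8
  linarith

/-- a bounded quotient of polynomials is a polynomial, with the degree bound -/
theorem exists_of_bound {d : ℕ} (p q h : MvPolynomial (Fin d) ℂ) (hq : q ≠ 0) (hh : h ≠ 0)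
    (C : ℝ) (i : ℕ)
    (hf : ∀ t : Fin d → ℂ, eval t h ≠ 0 → ‖eval t p‖ ≤ C * (1 + ‖t‖) ^ i * ‖eval t q‖) :
    ∃ f : MvPolynomial (Fin d) ℂ, f.totalDegree ≤ i ∧ p = q * f := by
  obtain ⟨q', p', c, hrel, hcq, hcp⟩ := UniqueFactorizationMonoid.exists_reduced_factors q hq p
  have hc : c ≠ 0 := by
    rintro rfl
    rw [zero_mul] at hcq
    exact hq hcq.symm
  have hq' : q' ≠ 0 := by
    rintro rfl
    rw [mul_zero] at hcq
    exact hq hcq.symm
  have hcont : ∀ f : MvPolynomial (Fin d) ℂ, Continuous fun t : Fin d → ℂ => eval t f :=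
    fun f => MvPolynomial.continuous_eval f
  -- the inequality for the reduced fraction, everywhere
  have hb : ∀ t : Fin d → ℂ, ‖eval t p'‖ ≤ C * (1 + ‖t‖) ^ i * ‖eval t q'‖ := by
    have hcl : IsClosed {t : Fin d → ℂ | ‖eval t p'‖ ≤ C * (1 + ‖t‖) ^ i * ‖eval t q'‖} := by
      apply isClosed_le
      · exact (hcont p').norm
      · exact ((continuous_const.mul ((continuous_const.add continuous_norm).pow i))).mul
          (hcont q').norm
    have hd := dense_ne_zero (mul_ne_zero hc hh)
    intro t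
    have hsub : {t : Fin d → ℂ | eval t (c * h) ≠ 0} ⊆
        {t : Fin d → ℂ | ‖eval t p'‖ ≤ C * (1 + ‖t‖) ^ i * ‖eval t q'‖} := by
      intro t ht
      simp only [Set.mem_ofPred_eq, map_mul, mul_ne_zero_iff] at ht
      have h1 := hf t ht.2
      rw [← hcp, ← hcq, map_mul, map_mul, norm_mul, norm_mul] at h1
      have h2 : 0 < ‖eval t c‖ := norm_pos_iff.2 ht.1
      have h3 : ‖eval t c‖ * ‖eval t p'‖ ≤ ‖eval t c‖ * (C * (1 + ‖t‖) ^ i * ‖eval t q'‖) := by
        linarith [h1]
      exact le_of_mul_le_mul_left h3 h2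
    exact hcl.closure_subset_iff.2 hsub (hd t)
  -- Nullstellensatz
  have hrad : p' ∈ (Ideal.span {q'}).radical := by
    rw [← vanishingIdeal_zeroLocus_eq_radical (K := ℂ), mem_vanishingIdeal_iff]
    intro t ht
    rw [mem_zeroLocus_iff] at ht
    have h1 : aeval t q' = 0 := ht q' (Ideal.mem_span_singleton_self q')
    have h2 := hb t
    rw [← coe_aeval_eq_eval] at h2
    simp only [RingHom.coe_coe] at h2
    rw [h1, norm_zero, mul_zero] at h2
    exact norm_le_zero_iff.1 h2
  obtain ⟨n, hn⟩ := Ideal.mem_radical_iff.1 hrad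
  rw [Ideal.mem_span_singleton] at hn
  have hrel' : IsRelPrime q' (p' ^ n) := by
    have := IsRelPrime.pow (m := 1) (n := n) hrel
    rwa [pow_one] at this
  have hunit : IsUnit q' := hrel' dvd_rfl hn
  obtain ⟨u, hu⟩ := hunit
  set f : MvPolynomial (Fin d) ℂ := ↑u⁻¹ * p' with hfdef
  have hpf : p = q * f := by
    rw [← hcp, ← hcq, hfdef, ← hu]
    calc c * p' = c * ((u : MvPolynomial (Fin d) ℂ) * ↑u⁻¹) * p' := by
          rw [Units.mul_inv, mul_one]
      _ = _ := by ring
  refine ⟨f, ?_, hpf⟩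
  apply totalDegree_le_of_bound f C i
  have hcl : IsClosed {t : Fin d → ℂ | ‖eval t f‖ ≤ C * (1 + ‖t‖) ^ i} := by
    apply isClosed_le (hcont f).norm
    exact (continuous_const.mul ((continuous_const.add continuous_norm).pow i))
  have hd := dense_ne_zero (mul_ne_zero hq hh)
  intro t
  refine hcl.closure_subset_iff.2 (fun t ht => ?_) (hd t)
  simp only [Set.mem_ofPred_eq, map_mul, mul_ne_zero_iff] at ht
  have h1 := hf t ht.2
  rw [hpf, map_mul, norm_mul] at h1
  have h2 : 0 < ‖eval t q‖ := norm_pos_iff.2 ht.1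
  have h3 : ‖eval t q‖ * ‖eval t f‖ ≤ ‖eval t q‖ * (C * (1 + ‖t‖) ^ i) := by linarith
  exact le_of_mul_le_mul_left h3 h2

/-- if `(p/q)^m * (n₁/n₂)` is a polynomial of degree at most `m i + c` for arbitrarily large `m`,
then `p/q` is a polynomial of degree at most `i`. -/
theorem exists_of_pow {K : Type*} [Field K] {d : ℕ} (p q n₁ n₂ : MvPolynomial (Fin d) K)
    (hq : q ≠ 0) (hn₁ : n₁ ≠ 0) (hn₂ : n₂ ≠ 0) (i c : ℕ)
    (hm : ∀ m₀ : ℕ, ∃ m ≥ m₀, ∃ P : MvPolynomial (Fin d) K, P.totalDegree ≤ m * i + c ∧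
      p ^ m * n₁ = P * (q ^ m * n₂)) :
    ∃ f : MvPolynomial (Fin d) K, f.totalDegree ≤ i ∧ p = q * f := by
  obtain ⟨q', p', a, hrel, hcq, hcp⟩ := UniqueFactorizationMonoid.exists_reduced_factors q hq p
  have ha : a ≠ 0 := by
    rintro rfl
    rw [zero_mul] at hcq
    exact hq hcq.symm
  have hunit : IsUnit q' := by
    by_contra hnu
    have hfin := FiniteMultiplicity.of_not_isUnit hnu hn₁
    obtain ⟨k, hk⟩ := hfin
    obtain ⟨m, hm, P, _, hP⟩ := hm (k + 1)
    have h1 : a ^ m * (p' ^ m * n₁) = a ^ m * (P * (q' ^ m * n₂)) := by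
      calc a ^ m * (p' ^ m * n₁) = (a * p') ^ m * n₁ := by rw [mul_pow]; ring
        _ = P * ((a * q') ^ m * n₂) := by rw [hcp, hcq, hP]
        _ = _ := by rw [mul_pow]; ring
    have h2 := mul_left_cancel₀ (pow_ne_zero m ha) h1
    have h3 : q' ^ m ∣ p' ^ m * n₁ := by
      rw [h2]
      exact Dvd.intro (n₂ * P) (by ring)
    have h4 : q' ^ m ∣ n₁ := (IsRelPrime.pow hrel).dvd_of_dvd_mul_left h3
    exact hk ((pow_dvd_pow q' hm).trans h4)
  obtain ⟨u, hu⟩ := hunit
  set f : MvPolynomial (Fin d) K := ↑u⁻¹ * p' with hfdef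
  have hpf : p = q * f := by
    rw [← hcp, ← hcq, hfdef, ← hu]
    calc a * p' = a * ((u : MvPolynomial (Fin d) K) * ↑u⁻¹) * p' := by
          rw [Units.mul_inv, mul_one]
      _ = _ := by ring
  refine ⟨f, ?_, hpf⟩
  by_cases hf0 : f = 0
  · rw [hf0]; simp
  have hdegpow : ∀ m : ℕ, (f ^ m).totalDegree = m * f.totalDegree := by
    intro m
    induction m with
    | zero => simp
    | succ m ih =>
      rw [pow_succ, totalDegree_mul_of_isDomain (pow_ne_zero m hf0) hf0, ih]
      ring
  by_contra hcon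
  push Not at hcon
  obtain ⟨m, hm, P, hPdeg, hP⟩ := hm (c + n₂.totalDegree + 1)
  have h1 : f ^ m * n₁ = P * n₂ := by
    rw [hpf, mul_pow] at hP
    have : q ^ m * (f ^ m * n₁) = q ^ m * (P * n₂) := by
      calc q ^ m * (f ^ m * n₁) = q ^ m * f ^ m * n₁ := by ring
        _ = P * (q ^ m * n₂) := hP
        _ = _ := by ring
    exact mul_left_cancel₀ (pow_ne_zero m hq) this
  have hP0 : P ≠ 0 := by
    rintro rfl
    rw [zero_mul] at h1
    exact mul_ne_zero (pow_ne_zero m hf0) hn₁ h1
  have h2 := congrArg totalDegree h1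
  rw [totalDegree_mul_of_isDomain (pow_ne_zero m hf0) hn₁, totalDegree_mul_of_isDomain hP0 hn₂,
    hdegpow] at h2
  have h3 : m * f.totalDegree ≥ m * (i + 1) := Nat.mul_le_mul_left m hcon
  have h4 : m * (i + 1) = m * i + m := by ring
  omega

end Vale.Agent.P299.H819
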