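import Vale.Agent.P299.H819.Lin
import Vale.Agent.P299.H819.Rat

/-!
Specialisation of polynomial divisibility, and norms of polynomials.
-/

namespace Vale.Agent.P299.H819

open MvPolynomial

/-- exponents of total degree at most `i` -/
noncomputable def expo (d i : ℕ) : Finset (Fin d →₀ ℕ) :=
  (Finset.range (i + 1)).biUnion fun k => Finset.finsuppAntidiag Finset.univ k

theorem mem_expo {d i : ℕ} {β : Fin d →₀ ℕ} : β ∈ expo d i ↔ β.degree ≤ i := by
  unfold expo
  simp only [Finset.mem_biUnion, Finset.mem_range, Finset.mem_finsuppAntidiag]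
  constructor
  · rintro ⟨k, hk, h1, _⟩
    rw [Finsupp.degree_eq_sum, h1]
    omega
  · intro h
    exact ⟨β.degree, by omega, by rw [Finsupp.degree_eq_sum], Finset.subset_univ _⟩

theorem coeff_eq_zero_of_not_mem_expo {R : Type*} [CommSemiring R] {d i : ℕ}
    {f : MvPolynomial (Fin d) R} (hf : f.totalDegree ≤ i) {β : Fin d →₀ ℕ} (hβ : β ∉ expo d i) :
    coeff β f = 0 := by
  by_contra h
  apply hβ
  rw [mem_expo]
  exact (le_totalDegree (mem_support_iff.2 h)).trans hf

theorem sum_expo {R : Type*} [CommSemiring R] {d i : ℕ}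
    {f : MvPolynomial (Fin d) R} (hf : f.totalDegree ≤ i) :
    f = ∑ β ∈ expo d i, monomial β (coeff β f) := by
  ext β
  rw [coeff_sum]
  by_cases hβ : β ∈ expo d i
  · rw [Finset.sum_eq_single β]
    · simp
    · intro b _ hb
      rw [coeff_monomial, if_neg hb]
    · intro h; exact absurd hβ h
  · rw [coeff_eq_zero_of_not_mem_expo hf hβ]
    symm
    apply Finset.sum_eq_zero
    intro b hb
    rw [coeff_monomial, if_neg]
    rintro rfl
    exact hβ hb

theorem totalDegree_sum_expo {R : Type*} [CommSemiring R] {d i : ℕ} (c : (Fin d →₀ ℕ) → R) :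
    (∑ β ∈ expo d i, monomial β (c β)).totalDegree ≤ i := by
  apply totalDegree_finsetSum_le
  intro β hβ
  refine (totalDegree_monomial_le β (c β)).trans ?_
  rw [mem_expo] at hβ
  exact hβ

/-- the family `p`, `q T^β` (`|β| ≤ i`) -/
noncomputable def specW {B : Type*} [CommRing B] {d : ℕ} (p q : MvPolynomial (Fin d) B) (i : ℕ) :
    Option (expo d i) → MvPolynomial (Fin d) B := fun j =>
  j.elim p (fun β => q * monomial (β : Fin d →₀ ℕ) 1)

open Classical in
/-- the exponents which occur in `specW` -/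
noncomputable def specT {B : Type*} [CommRing B] {d : ℕ} (p q : MvPolynomial (Fin d) B) (i : ℕ) :
    Finset (Fin d →₀ ℕ) :=
  Finset.univ.biUnion fun j : Option (expo d i) => (specW p q i j).support

theorem specW_sum {B : Type*} [CommRing B] {d : ℕ} (p q : MvPolynomial (Fin d) B) (i : ℕ)
    {k : Type*} [Field k] (y : B →+* k) (c : Option (expo d i) → k) :
    (∀ s ∈ specT p q i, ∑ j, c j * y (coeff s (specW p q i j)) = 0) ↔
      C (c none) * map y p + map y q * ∑ β : expo d i, monomial (β : Fin d →₀ ℕ) (c (some β))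
        = 0 := by
  classical
  have hT : ∀ j s, s ∉ specT p q i → coeff s (specW p q i j) = 0 := by
    intro j s hs
    by_contra h
    apply hs
    unfold specT
    rw [Finset.mem_biUnion]
    exact ⟨j, Finset.mem_univ _, mem_support_iff.2 h⟩
  have e1 : C (c none) * map y p + map y q *
      ∑ β : expo d i, monomial (β : Fin d →₀ ℕ) (c (some β)) =
      ∑ j, C (c j) * map y (specW p q i j) := by
    rw [Fintype.sum_option]
    congr 1
    rw [Finset.mul_sum]
    refine Finset.sum_congr rfl fun β _ => ?_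
    simp only [specW, Option.elim_some, map_mul, map_monomial, map_one]
    rw [← mul_one (c (some β)), ← C_mul_monomial, mul_one]
    ring
  rw [e1]
  constructor
  · intro h
    ext s
    rw [coeff_sum, coeff_zero]
    simp only [coeff_C_mul, coeff_map]
    by_cases hs : s ∈ specT p q i
    · exact h s hs
    · apply Finset.sum_eq_zero
      intro j _
      rw [hT j s hs, map_zero, mul_zero]
  · intro h s _
    have := congrArg (coeff s) h
    rw [coeff_sum, coeff_zero] at this
    simpa only [coeff_C_mul, coeff_map] using this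

theorem spec_not_dvd {B K : Type*} [CommRing B] [IsDomain B] [Field K] [Algebra B K]
    [IsFractionRing B K] {d : ℕ} (p q : MvPolynomial (Fin d) B) (hq : q ≠ 0) (i : ℕ)
    (hn : ¬ ∃ f : MvPolynomial (Fin d) K, f.totalDegree ≤ i ∧
      map (algebraMap B K) p = map (algebraMap B K) q * f) :
    ∃ g : B, g ≠ 0 ∧ ∀ y : B →+* ℂ, y g ≠ 0 →
      ¬ ∃ f : MvPolynomial (Fin d) ℂ, f.totalDegree ≤ i ∧ map y p = map y q * f := by
  classical
  have hqK : map (algebraMap B K) q ≠ 0 := by
    intro h
    apply hq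
    apply map_injective (algebraMap B K) (IsFractionRing.injective B K)
    rw [h, map_zero]
  obtain ⟨g, hg, hy⟩ := spec_linInd (K := K) (specT p q i) (fun j s => coeff s (specW p q i j)) (by
    intro c hc
    rw [specW_sum p q i (algebraMap B K) c] at hc
    have hnone : c none = 0 := by
      by_contra h0
      apply hn
      refine ⟨∑ β ∈ expo d i, monomial β (if h : β ∈ expo d i then
        -(c none)⁻¹ * c (some ⟨β, h⟩) else 0), totalDegree_sum_expo _, ?_⟩
      have e2 : (∑ β ∈ expo d i, monomial β (if h : β ∈ expo d i then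
        -(c none)⁻¹ * c (some ⟨β, h⟩) else 0) : MvPolynomial (Fin d) K) =
          C (-(c none)⁻¹) * ∑ β : expo d i, monomial (β : Fin d →₀ ℕ) (c (some β)) := by
        rw [← Finset.sum_coe_sort (expo d i), Finset.mul_sum]
        refine Finset.sum_congr rfl fun β _ => ?_
        rw [dif_pos β.2, C_mul_monomial]
      rw [e2]
      have e3 : map (algebraMap B K) p = C ((c none)⁻¹) * (C (c none) * map (algebraMap B K) p) := by
        rw [← mul_assoc, ← C_mul, inv_mul_cancel₀ h0, C_1, one_mul]
      rw [e3, eq_neg_of_add_eq_zero_left hc, C_neg]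
      ring
    rw [hnone, C_0, zero_mul, zero_add] at hc
    have h4 := (mul_eq_zero.1 hc).resolve_left hqK
    ext j
    cases j with
    | none => exact hnone
    | some β =>
      have h5 := congrArg (coeff (β : Fin d →₀ ℕ)) h4
      rw [coeff_sum, coeff_zero, Finset.sum_eq_single β] at h5
      · simpa using h5
      · intro b _ hb
        rw [coeff_monomial, if_neg]
        intro h; exact hb (Subtype.ext h)
      · intro h; exact absurd (Finset.mem_univ _) h)
  refine ⟨g, hg, fun y hyg => ?_⟩
  rintro ⟨f, hf, hpf⟩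
  have h6 := hy y hyg (fun j => j.elim 1 (fun β => - coeff (β : Fin d →₀ ℕ) f)) ?_
  · have := congrFun h6 none
    simp at this
  · rw [specW_sum p q i y]
    simp only [Option.elim_none, Option.elim_some, C_1, one_mul, map_neg]
    rw [Finset.sum_neg_distrib, Finset.sum_coe_sort (expo d i) (fun β => monomial β (coeff β f)),
      ← sum_expo hf, hpf]
    ring

theorem spec_ne_zero {B : Type*} [CommRing B] {d : ℕ}
    (q : MvPolynomial (Fin d) B) (hq : q ≠ 0) :
    ∃ g : B, g ≠ 0 ∧ ∀ y : B →+* ℂ, y g ≠ 0 → map y q ≠ 0 := by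
  obtain ⟨s, hs⟩ := MvPolynomial.ne_zero_iff.1 hq
  refine ⟨coeff s q, hs, fun y hy h0 => hy ?_⟩
  rw [← coeff_map, h0, coeff_zero]

/-- the coefficients of a polynomial of bounded degree are controlled by its values on the
unit ball -/
theorem coeff_bound (d i : ℕ) : ∃ C : ℝ, 0 < C ∧ ∀ f : MvPolynomial (Fin d) ℂ,
    f.totalDegree ≤ i → ∀ M : ℝ, (∀ t : Fin d → ℂ, ‖t‖ ≤ 1 → ‖eval t f‖ ≤ M) →
    ∀ β, ‖coeff β f‖ ≤ C * M := by
  classical
  have : CompactSpace (Metric.closedBall (0 : Fin d → ℂ) 1) :=
    isCompact_iff_compactSpace.1 (isCompact_closedBall 0 1)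
  let P : (expo d i → ℂ) → MvPolynomial (Fin d) ℂ := fun c =>
    ∑ β : expo d i, monomial (β : Fin d →₀ ℕ) (c β)
  let Φ : (expo d i → ℂ) →ₗ[ℂ] C(Metric.closedBall (0 : Fin d → ℂ) 1, ℂ) :=
    { toFun := fun c => ⟨fun t => eval (t : Fin d → ℂ) (P c),
        (MvPolynomial.continuous_eval (P c)).comp continuous_subtype_val⟩
      map_add' := by
        intro a b; ext t
        simp [P, Finset.sum_add_distrib]
      map_smul' := by
        intro a b; ext t
        simp [P, Finset.mul_sum, eval_monomial, mul_assoc] }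
  have hinj : LinearMap.ker Φ = ⊥ := by
    rw [LinearMap.ker_eq_bot']
    intro c hc
    have hP : P c = 0 := by
      by_contra hP
      obtain ⟨t, ht1, ht2⟩ := (Metric.dense_iff.1 (dense_ne_zero hP)) 0 1 one_pos
      apply ht2
      have h1 := congrArg (fun φ : C(Metric.closedBall (0 : Fin d → ℂ) 1, ℂ) =>
        φ ⟨t, Metric.ball_subset_closedBall ht1⟩) hc
      exact h1
    ext β
    have h5 := congrArg (coeff (β : Fin d →₀ ℕ)) hP
    simp only [P] at h5
    rw [coeff_sum, coeff_zero, Finset.sum_eq_single β] at h5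
    · simpa using h5
    · intro b _ hb
      rw [coeff_monomial, if_neg]
      intro h; exact hb (Subtype.ext h)
    · intro h; exact absurd (Finset.mem_univ _) h
  obtain ⟨K, hK, hΦ⟩ := LinearMap.exists_antilipschitzWith Φ hinj
  refine ⟨K, hK, fun f hf M hM β => ?_⟩
  have hM0 : 0 ≤ M := (norm_nonneg _).trans (hM 0 (by simp))
  by_cases hβ : β ∈ expo d i
  · let c : expo d i → ℂ := fun β => coeff (β : Fin d →₀ ℕ) f
    have hPc : P c = f := by
      simp only [P, c]
      rw [Finset.sum_coe_sort (expo d i) (fun β => monomial β (coeff β f)), ← sum_expo hf]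
    have h1 : ‖c‖ ≤ K * ‖Φ c‖ := by
      have := hΦ.le_mul_dist c 0
      simpa using this
    have h2 : ‖Φ c‖ ≤ M := by
      rw [ContinuousMap.norm_le _ hM0]
      intro t
      show ‖eval (t : Fin d → ℂ) (P c)‖ ≤ M
      rw [hPc]
      exact hM t (mem_closedBall_zero_iff.1 t.2)
    calc ‖coeff β f‖ = ‖c ⟨β, hβ⟩‖ := rfl
      _ ≤ ‖c‖ := norm_le_pi_norm c _
      _ ≤ K * ‖Φ c‖ := h1
      _ ≤ K * M := by gcongr
  · rw [coeff_eq_zero_of_not_mem_expo hf hβ, norm_zero]
    positivity

end Vale.Agent.P299.H819
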